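import Crest.Agent.R106.GS.Id

/-! Row 106, block GS: the two cone estimates. -/

set_option autoImplicit false

noncomputable section

namespace Crest.Agent.R106.GS

open MeasureTheory Set Metric Crest.AnalysisR.VecCalc3 Crest.AnalysisR.PDE.RVM
open Crest.Agent.R106.HR (PX Z6 PZ K6 ee px rho cur Lin MxL Force flx Bd S_GS0 S_LOG)
open Crest.Agent.R106.Wave (sg e3 D)
open scoped ContDiff InnerProductSpace

/-- a smooth function and its derivative are bounded on `[0, T] × KK R` (compactness) -/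
theorem bd_cpt {V : Type} [NormedAddCommGroup V] [NormedSpace ℝ V] {g : PZ → V} (hg : ContDiff ℝ ∞ g) (R T : ℝ) :
    ∃ c : ℝ, 0 ≤ c ∧ ∀ r ∈ Icc (0 : ℝ) T, ∀ z ∈ KK R, ‖g (r, z)‖ ≤ c ∧ ‖fderiv ℝ g (r, z)‖ ≤ c := by
  have hK : IsCompact (Icc (0 : ℝ) T ×ˢ KK R) := isCompact_Icc.prod (cpt_KK R)
  obtain ⟨c₁, h₁⟩ := hK.exists_bound_of_continuousOn hg.continuous.continuousOn
  obtain ⟨c₂, h₂⟩ := hK.exists_bound_of_continuousOn (hg.continuous_fderiv (by simp)).continuousOn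
  exact ⟨max 0 (max c₁ c₂), le_max_left _ _, fun r hr z hz =>
    ⟨(h₁ (r, z) ⟨hr, hz⟩).trans ((le_max_left _ _).trans (le_max_right _ _)),
      (h₂ (r, z) ⟨hr, hz⟩).trans ((le_max_right _ _).trans (le_max_right _ _))⟩⟩

theorem bounda_prod {m g : PZ → ℝ} (hm : ContDiff ℝ ∞ m) (hg : ContDiff ℝ ∞ g) {p : PZ} {M ψ c : ℝ} (h1 : |m p| ≤ M)
    (h2 : ‖fderiv ℝ m p‖ ≤ ψ) (h3 : ‖g p‖ ≤ c ∧ ‖fderiv ℝ g p‖ ≤ c) (v : PZ) :
    |fderiv ℝ (fun w => m w * g w) p v| ≤ c * (M + ψ) * ‖v‖ := by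
  refine ((fderiv ℝ (fun w => m w * g w) p).le_opNorm v).trans (mul_le_mul_of_nonneg_right ?_ (norm_nonneg v))
  rw [fderiv_fun_mul (hm.differentiable (by simp) p) (hg.differentiable (by simp) p)]
  refine (norm_add_le _ _).trans ?_
  rw [norm_smul, norm_smul, mul_add, mul_comm c M]
  exact add_le_add (mul_le_mul h1 h3.2 (norm_nonneg _) ((abs_nonneg _).trans h1))
    (mul_le_mul h3.1 h2 (norm_nonneg _) ((norm_nonneg _).trans h3.1))

/-- size of the derived kernels: product rule + `bd_cpt` for `lam e`, `bet e`, `yy e · i`; `‖tg i z‖ ≤ 2`, `|w i| ≤ 1` -/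
theorem ker_ops (R T : ℝ) (e : PX) : ∃ c : ℝ, 0 ≤ c ∧ ∀ m : PZ → ℝ, ContDiff ℝ ∞ m → ∀ r ∈ Icc (0 : ℝ) T, ∀ z ∈ KK R,
    ∀ M ψ : ℝ, |m (r, z)| ≤ M → ‖fderiv ℝ m (r, z)‖ ≤ ψ →
      |m (r, z) * bet e (r, z)| ≤ c * M ∧ |Jop e m (r, z)| ≤ c * (M + ψ) ∧
      |fderiv ℝ (fun w => m w * bet e w) (r, z) (1, 0)| ≤ c * (M + ψ) ∧ |q1 e m (r, z)| ≤ c * (M + ψ) ∧
      ∀ b : R3, |fderiv ℝ (fun w => m w * lam e w) (r, z) (0, 0, b)| ≤ c * (M + ψ) * ‖b‖ := by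
  obtain ⟨c₁, p₁, h₁⟩ := bd_cpt (contDiff_lam e) R T
  obtain ⟨c₂, p₂, h₂⟩ := bd_cpt (contDiff_bet e) R T
  choose c₃ p₃ h₃ using fun i => bd_cpt (contDiff_yyi e i) R T
  obtain ⟨c, p, k₁, k₂, k₃⟩ : ∃ c : ℝ, 0 ≤ c ∧ c₁ ≤ c ∧ c₂ ≤ c ∧ ∀ i, c₃ i ≤ c := by
    have h0 : 0 ≤ ∑ i, c₃ i := Finset.sum_nonneg fun i _ => p₃ i
    exact ⟨c₁ + c₂ + ∑ i, c₃ i, by positivity, by linarith, by linarith, fun i => by
      linarith [Finset.single_le_sum (fun i _ => p₃ i) (Finset.mem_univ i)]⟩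
  refine ⟨(13 + |T|) * c, by positivity, fun m hm r hr z hz M ψ hM hψ => ?_⟩
  have hM0 : 0 ≤ M := (abs_nonneg _).trans hM
  have hψ0 : 0 ≤ ψ := (norm_nonneg _).trans hψ
  have hT := abs_nonneg T
  have up : ∀ {a b d : ℝ}, d ≤ c → a ≤ d ∧ b ≤ d → a ≤ c ∧ b ≤ c := fun h h' => ⟨h'.1.trans h, h'.2.trans h⟩
  have b1 := up k₁ (h₁ r hr z hz)
  have b2 := up k₂ (h₂ r hr z hz)
  have b3 := fun i => up (k₃ i) (h₃ i r hr z hz)
  have hw : ∀ i, |z.1 i| ≤ 1 := fun i => (KK_norm hz) ▸ PiLp.norm_apply_le z.1 i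
  have ht : ∀ i, ‖tg i (r, z)‖ ≤ 2 := fun i => by
    have : ‖e3 i - z.1 i • z.1‖ ≤ 2 := by
      refine (norm_sub_le _ _).trans ?_
      rw [norm_smul, KK_norm hz, Real.norm_eq_abs]
      have : ‖e3 i‖ = 1 := by simp [e3]
      linarith [hw i]
    simpa [tg, Prod.norm_def] using this
  have cM : 0 ≤ c * M := by positivity
  have cψ : 0 ≤ c * ψ := by positivity
  have a1 : |m (r, z) * bet e (r, z)| ≤ c * M := by
    rw [abs_mul, mul_comm c]
    exact mul_le_mul hM b2.1 (abs_nonneg _) hM0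
  have a2 : |Jop e m (r, z)| ≤ 12 * (c * (M + ψ)) := by
    refine (Finset.abs_sum_le_sum_abs _ _).trans ((Finset.sum_le_card_nsmul _ _ (4 * (c * (M + ψ))) fun i _ => ?_).trans_eq ?_)
    · have e1 : |m (r, z) * yy e (r, z) i| ≤ M * c := by
        rw [abs_mul]; exact mul_le_mul hM (b3 i).1 (abs_nonneg _) hM0
      have e2 := (bounda_prod hm (contDiff_yyi e i) hM hψ (b3 i) (tg i (r, z))).trans
        (mul_le_mul_of_nonneg_left (ht i) (by positivity))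
      have e3 : |2 * z.1 i * (m (r, z) * yy e (r, z) i)| ≤ 2 * 1 * (M * c) := by
        rw [abs_mul, abs_mul, abs_two]
        exact mul_le_mul (mul_le_mul_of_nonneg_left (hw i) zero_le_two) e1 (abs_nonneg _) (by norm_num)
      refine (abs_sub _ _).trans ((add_le_add e3 e2).trans ?_)
      linarith
    · simp only [Finset.card_univ, Fintype.card_fin, nsmul_eq_mul]; push_cast; ring
  have a3 : |fderiv ℝ (fun w => m w * bet e w) (r, z) (1, 0)| ≤ c * (M + ψ) := by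
    simpa [Prod.norm_def] using bounda_prod hm (contDiff_bet e) hM hψ b2 (1, 0)
  have a4 : |r * fderiv ℝ (fun w => m w * bet e w) (r, z) (1, 0)| ≤ |T| * (c * (M + ψ)) := by
    rw [abs_mul]
    exact mul_le_mul (by rw [abs_of_nonneg hr.1]; exact hr.2.trans (le_abs_self T)) a3 (abs_nonneg _) hT
  have TM : 0 ≤ |T| * (c * M) := by positivity
  have Tψ : 0 ≤ |T| * (c * ψ) := by positivity
  refine ⟨by linarith, by linarith, by linarith, ?_, fun b => ?_⟩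
  · refine (abs_sub _ _).trans ((add_le_add ((abs_sub _ _).trans (add_le_add a2 a1)) a4).trans ?_)
    linarith
  · have := bounda_prod hm (contDiff_lam e) hM hψ b1 (0, 0, b)
    rw [show ‖((0, 0, b) : PZ)‖ = ‖b‖ by simp [Prod.norm_def]] at this
    exact this.trans (mul_le_mul_of_nonneg_right (by linarith) (norm_nonneg b))

/-- weight `r`: `gs_int` with `t = q.1` (`cp q (q.1, z)` has time `0`), `ker_ops`, `av_le`,
`intervalIntegral.norm_integral_le_of_norm_le` / `integral_mono_on`. -/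
theorem gb1 (R T : ℝ) (e : PX) : ∃ C : ℝ, 0 ≤ C ∧ ∀ (u : PZ → ℝ) (H : PZ → R3), Kin R u H →
    ∀ m : PZ → ℝ, ContDiff ℝ ∞ m → ∀ q : PX, q.1 ∈ Icc 0 T → ∀ (M a : ℝ) (ψ φ : ℝ → ℝ), 0 ≤ M → (∀ r, 0 ≤ ψ r) →
      Continuous ψ → Continuous φ →
      (∀ r ∈ Icc 0 q.1, ∀ z ∈ KK R, |m (r, z)| ≤ M ∧ ‖fderiv ℝ m (r, z)‖ ≤ ψ r) → (∀ z, |u (0, z)| ≤ a) →
      (∀ s ∈ Icc 0 q.1, ∀ z, |u (s, z)| ≤ φ s ∧ ‖H (s, z)‖ ≤ φ s) →
      |∫ r in (0 : ℝ)..q.1, r * av R (Pk e q u m) r| ≤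
        C * (M * a + ∫ r in (0 : ℝ)..q.1, (M + ψ r) * φ (q.1 - r)) := by
  obtain ⟨c, hc, H1⟩ := ker_ops R T e
  have hv := vol_nonneg R
  refine ⟨vol R * c * (|T| + 1), by positivity, fun u H hK m hm q hq M a ψ φ hM hψ cψ cφ h1 h2 h3 => ?_⟩
  have ha : 0 ≤ a := (abs_nonneg _).trans (h2 0)
  have hT : q.1 ≤ |T| := hq.2.trans (le_abs_self T)
  have hI : ∀ r ∈ Icc 0 q.1, r ∈ Icc 0 T := fun r hr => ⟨hr.1, hr.2.trans hq.2⟩
  have hs : ∀ r ∈ Icc 0 q.1, q.1 - r ∈ Icc 0 q.1 := fun r hr => ⟨by linarith [hr.2], by linarith [hr.1]⟩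
  have hφ : ∀ r ∈ Icc 0 q.1, 0 ≤ (M + ψ r) * φ (q.1 - r) := fun r hr =>
    mul_nonneg (add_nonneg hM (hψ r)) ((abs_nonneg _).trans (h3 _ (hs r hr) 0).1)
  have hJ : 0 ≤ ∫ r in (0 : ℝ)..q.1, (M + ψ r) * φ (q.1 - r) := intervalIntegral.integral_nonneg hq.1 hφ
  have key : ∀ (g : ℝ → ℝ) (K : ℝ), (∀ r ∈ Icc 0 q.1, |g r| ≤ K * ((M + ψ r) * φ (q.1 - r))) →
      |∫ r in (0 : ℝ)..q.1, g r| ≤ K * ∫ r in (0 : ℝ)..q.1, (M + ψ r) * φ (q.1 - r) := fun g K hg => by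
    rw [← intervalIntegral.integral_const_mul]
    exact intervalIntegral.norm_integral_le_of_norm_le (f := g) (g := fun r => K * ((M + ψ r) * φ (q.1 - r))) hq.1
      (Filter.Eventually.of_forall fun r hr => hg r ⟨hr.1.le, hr.2⟩) (Continuous.intervalIntegrable (by fun_prop) _ _)
  have t1 : |q.1 * av R (Gk e q u m) q.1| ≤ |T| * (vol R * (c * M * a)) := by
    rw [abs_mul, abs_of_nonneg hq.1]
    refine mul_le_mul hT (av_le fun z hz => ?_) (abs_nonneg _) (abs_nonneg _)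
    obtain ⟨b1, b2⟩ := h1 q.1 ⟨hq.1, le_rfl⟩ z hz
    rw [Gk, abs_mul]
    refine mul_le_mul (H1 m hm q.1 hq z hz M _ b1 b2).1 ?_ (abs_nonneg _) (by positivity)
    simpa only [cp, sub_self] using h2 _
  have t2 := key (av R fun z => q1 e m z * u (cp q z)) (vol R * c) fun r hr => by
    rw [mul_assoc]
    refine av_le fun z hz => ?_
    obtain ⟨b1, b2⟩ := h1 r hr z hz
    rw [abs_mul, ← mul_assoc]
    exact mul_le_mul (H1 m hm r (hI r hr) z hz M _ b1 b2).2.2.2.1 (h3 _ (hs r hr) _).1 (abs_nonneg _)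
      (mul_nonneg hc (add_nonneg hM (hψ r)))
  have t3 := key (fun r => r * av R (Vk e q H m) r) (|T| * (vol R * c)) fun r hr => by
    rw [abs_mul, abs_of_nonneg hr.1, mul_assoc, mul_assoc]
    refine mul_le_mul (hr.2.trans hT) (av_le fun z hz => ?_) (abs_nonneg _) (abs_nonneg _)
    obtain ⟨b1, b2⟩ := h1 r hr z hz
    rw [← mul_assoc]
    exact ((H1 m hm r (hI r hr) z hz M _ b1 b2).2.2.2.2 _).trans
      (mul_le_mul_of_nonneg_left (h3 _ (hs r hr) _).2 (mul_nonneg hc (add_nonneg hM (hψ r))))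
  rw [gs_int hK hm]
  refine (abs_add_three _ _ _).trans ((add_le_add_three t1 t2 t3).trans ?_)
  nlinarith [mul_nonneg (mul_nonneg hv hc) (mul_nonneg hM ha)]

/-- weight `1`: on `[0, min ε q.1]` use `av_le` with `N₁`; on `[ε, q.1]` integrate `gs_deriv`:
`av Pk = (av Gk)' - av Rk + av Vk + av Tk`, `|av Tk r| ≤ c / r` by `gs_tan`, `∫ 1 / r = log q.1 - log ε ≤ T - log ε`. -/
theorem gb2 (R T : ℝ) (e : PX) : ∃ C : ℝ, 0 ≤ C ∧ ∀ (u : PZ → ℝ) (H : PZ → R3), Kin R u H →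
    ∀ m : PZ → ℝ, ContDiff ℝ ∞ m → ∀ q : PX, q.1 ∈ Icc 0 T → ∀ M N₀ N₁ ε : ℝ, 0 ≤ M → 0 < ε → ε ≤ 1 →
      (∀ r ∈ Icc 0 q.1, ∀ z ∈ KK R, |m (r, z)| ≤ M ∧ ‖fderiv ℝ m (r, z)‖ ≤ M) →
      (∀ s ∈ Icc 0 q.1, ∀ z, |u (s, z)| ≤ N₀ ∧ ‖H (s, z)‖ ≤ N₀ ∧ |fderiv ℝ u (s, z) (e.1, e.2, 0)| ≤ N₁) →
      |∫ r in (0 : ℝ)..q.1, av R (Pk e q u m) r| ≤ C * M * (ε * N₁ + N₀ * (1 - Real.log ε)) := by
  obtain ⟨c, hc0, hc⟩ := ker_ops R T e
  have hv := vol_nonneg R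
  refine ⟨vol R * (1 + c * (4 + 6 * |T|)), by positivity, ?_⟩
  intro u H hK m hm q hq M N₀ N₁ ε hM hε hε1 hmb hub
  have hN0 : 0 ≤ N₀ := (abs_nonneg _).trans (hub 0 ⟨le_rfl, hq.1⟩ 0).1
  have hN1 : 0 ≤ N₁ := (abs_nonneg _).trans (hub 0 ⟨le_rfl, hq.1⟩ 0).2.2
  have hL : Real.log ε ≤ 0 := Real.log_nonpos hε.le hε1
  have hT : q.1 ≤ |T| := hq.2.trans (le_abs_self T)
  have hcp : ∀ r ∈ Icc 0 q.1, ∀ z : Z6, |u (cp q (r, z))| ≤ N₀ ∧ ‖H (cp q (r, z))‖ ≤ N₀ ∧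
      |fderiv ℝ u (cp q (r, z)) (e.1, e.2, 0)| ≤ N₁ := fun r hr z =>
    hub (q.1 - r) ⟨by linarith [hr.2], by linarith [hr.1]⟩ (q.2 + r • z.1, z.2)
  have hk := fun r (hr : r ∈ Icc 0 q.1) z (hz : z ∈ KK R) =>
    hc m hm r ⟨hr.1, hr.2.trans hq.2⟩ z hz M M (hmb r hr z hz).1 (hmb r hr z hz).2
  have cP := continuous_av (contDiff_Pk e q hK.su hm) R
  have cR := continuous_av (contDiff_Rk e q hK.su hm) R
  have cV := continuous_av (contDiff_Vk e q hK.sH hm) R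
  have cT := continuous_av (contDiff_Tk e q hK.su hm) R
  have h1 : ∀ a, 0 ≤ a → a ≤ q.1 → a ≤ ε →
      |∫ r in (0 : ℝ)..a, av R (Pk e q u m) r| ≤ vol R * (M * N₁) * ε := by
    intro a ha ha1 ha2
    have := intervalIntegral.norm_integral_le_of_norm_le_const (a := 0) (b := a)
      (f := fun r => av R (Pk e q u m) r) (C := vol R * (M * N₁)) (fun r hr => by
        rw [uIoc_of_le ha] at hr
        have hr' : r ∈ Icc 0 q.1 := ⟨hr.1.le, hr.2.trans ha1⟩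
        refine av_le fun z hz => ?_
        unfold Pk
        rw [abs_mul]
        exact mul_le_mul (hmb r hr' z hz).1 (hcp r hr' z).2.2 (abs_nonneg _) hM)
    rw [sub_zero, abs_of_nonneg ha, Real.norm_eq_abs] at this
    exact this.trans (mul_le_mul_of_nonneg_left ha2 (by positivity))
  have hA : 0 ≤ vol R * (c * M * N₀) := by positivity
  have hB : 0 ≤ vol R * (M * N₁) * ε := by positivity
  have hfin : ∀ x : ℝ, x ≤ vol R * (M * N₁) * ε + vol R * (c * M * N₀) * ((4 + 6 * |T|) * (1 - Real.log ε)) →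
      x ≤ vol R * (1 + c * (4 + 6 * |T|)) * M * (ε * N₁ + N₀ * (1 - Real.log ε)) := by
    intro x hx
    have e1 : 0 ≤ vol R * M * (N₀ * (1 - Real.log ε)) := by
      have : 0 ≤ 1 - Real.log ε := by linarith
      positivity
    have e2 : 0 ≤ vol R * (c * (4 + 6 * |T|)) * M * (ε * N₁) := by positivity
    nlinarith
  apply hfin
  have hTL : 0 ≤ (4 + 6 * |T|) * (1 - Real.log ε) := by
    have : 0 ≤ 1 - Real.log ε := by linarith
    positivity
  rcases le_total q.1 ε with hqe | hqe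
  · have := h1 q.1 hq.1 le_rfl hqe
    nlinarith [mul_nonneg hA hTL]
  have hG : ∀ r ∈ Icc 0 q.1, |av R (Gk e q u m) r| ≤ vol R * (c * M * N₀) := fun r hr =>
    av_le fun z hz => by
      unfold Gk
      rw [abs_mul]
      exact mul_le_mul (hk r hr z hz).1 (hcp r hr z).1 (abs_nonneg _) (by positivity)
  have hR : ∀ r ∈ Icc 0 q.1, |av R (Rk e q u m) r| ≤ vol R * (c * (M + M) * N₀) := fun r hr =>
    av_le fun z hz => by
      unfold Rk
      rw [abs_mul]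
      exact mul_le_mul (hk r hr z hz).2.2.1 (hcp r hr z).1 (abs_nonneg _) (by positivity)
  have hV : ∀ r ∈ Icc 0 q.1, |av R (Vk e q H m) r| ≤ vol R * (c * (M + M) * N₀) := fun r hr =>
    av_le fun z hz => by
      unfold Vk
      exact ((hk r hr z hz).2.2.2.2 _).trans
        (mul_le_mul_of_nonneg_left (hcp r hr z).2.1 (by positivity))
  have hTk : ∀ r ∈ Icc 0 q.1, 0 < r →
      |av R (Tk e q u m) r| ≤ vol R * (c * (M + M) * N₀) * r⁻¹ := fun r hr hr0 => by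
    have h2 : |av R (fun z => Jop e m z * u (cp q z)) r| ≤ vol R * (c * (M + M) * N₀) :=
      av_le fun z hz => by
        rw [abs_mul]
        exact mul_le_mul (hk r hr z hz).2.1 (hcp r hr z).1 (abs_nonneg _) (by positivity)
    rw [← gs_tan hK.su hm R e q r, abs_mul, abs_of_pos hr0] at h2
    rw [← div_eq_mul_inv, le_div_iff₀ hr0, mul_comm]
    exact h2
  have hI : ∫ r in ε..q.1, (av R (Pk e q u m) r +
      (av R (Rk e q u m) r - av R (Vk e q H m) r - av R (Tk e q u m) r)) =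
      av R (Gk e q u m) q.1 - av R (Gk e q u m) ε := by
    refine intervalIntegral.integral_eq_sub_of_hasDerivAt (fun r _ => ?_)
      ((cP.add ((cR.sub cV).sub cT)).intervalIntegrable _ _)
    refine (gs_deriv hK hm e q r).congr_deriv ?_
    ring
  have cS : Continuous fun r => av R (Rk e q u m) r - av R (Vk e q H m) r - av R (Tk e q u m) r :=
    (cR.sub cV).sub cT
  rw [intervalIntegral.integral_add (cP.intervalIntegrable _ _) (cS.intervalIntegrable _ _)] at hI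
  have hinv : IntervalIntegrable (fun r : ℝ => r⁻¹) volume ε q.1 := by
    refine intervalIntegral.intervalIntegrable_inv (f := fun r => r) (fun r hr => ?_) continuousOn_id
    rw [uIcc_of_le hqe] at hr
    exact (hε.trans_le hr.1).ne'
  have hJ : ‖∫ r in ε..q.1, (av R (Rk e q u m) r - av R (Vk e q H m) r - av R (Tk e q u m) r)‖ ≤
      ∫ r in ε..q.1, (4 * (vol R * (c * M * N₀)) + 2 * (vol R * (c * M * N₀)) * r⁻¹) := by
    refine intervalIntegral.norm_integral_le_of_norm_le hqe (Filter.Eventually.of_forall fun r hr => ?_)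
      (intervalIntegrable_const.add (hinv.const_mul _))
    have hr' : r ∈ Icc 0 q.1 := ⟨(hε.trans hr.1).le, hr.2⟩
    have a1 := abs_le.1 (hR r hr')
    have a2 := abs_le.1 (hV r hr')
    have a3 := abs_le.1 (hTk r hr' (hε.trans hr.1))
    rw [Real.norm_eq_abs, abs_le]
    constructor <;> nlinarith [a1.1, a1.2, a2.1, a2.2, a3.1, a3.2]
  rw [intervalIntegral.integral_add intervalIntegrable_const (hinv.const_mul _),
    intervalIntegral.integral_const, intervalIntegral.integral_const_mul,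
    integral_inv_of_pos hε (hε.trans_le hqe), Real.log_div (hε.trans_le hqe).ne' hε.ne',
    Real.norm_eq_abs, smul_eq_mul] at hJ
  have hlog : Real.log q.1 ≤ |T| := by
    have := Real.log_le_sub_one_of_pos (hε.trans_le hqe)
    linarith
  rw [← intervalIntegral.integral_add_adjacent_intervals (b := ε) (cP.intervalIntegrable _ _)
    (cP.intervalIntegrable _ _)]
  have b1 := abs_le.1 (h1 ε hε.le hqe le_rfl)
  have b2 := abs_le.1 (hG q.1 ⟨hq.1, le_rfl⟩)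
  have b3 := abs_le.1 (hG ε ⟨hε.le, hqe⟩)
  have b4 := abs_le.1 hJ
  set A := vol R * (c * M * N₀) with hAdef
  have b5 : 2 * A + ((q.1 - ε) * (4 * A) + 2 * A * (Real.log q.1 - Real.log ε)) ≤
      A * ((4 + 6 * |T|) * (1 - Real.log ε)) := by
    have t1 : 0 ≤ A * (|T| - (q.1 - ε)) := mul_nonneg hA (by linarith)
    have t2 : 0 ≤ A * (|T| - Real.log q.1) := mul_nonneg hA (by linarith)
    have t3 : 0 ≤ A * (-Real.log ε) := mul_nonneg hA (by linarith)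
    have t4 : 0 ≤ A * (-Real.log ε) * |T| := mul_nonneg t3 (abs_nonneg _)
    nlinarith
  rw [abs_le]
  constructor <;> linarith [b1.1, b1.2, b2.1, b2.2, b3.1, b3.2, b4.1, b4.2]

end Crest.Agent.R106.GS
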