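import Crest.Agent.R106.HR.Defs
import Crest.Agent.R106.Wave.WS

/-! Row 106, block GS (owner helper48): Glassey-Strauss in polar coordinates.  A point `z : PZ` is read as
`(r, w, v)`; `cp q z = (t - r, x + r w, v)` is the point of the backward cone of `q = (t, x)`. -/

set_option autoImplicit false

noncomputable section

namespace Crest.Agent.R106.GS

open MeasureTheory Set Metric Crest.AnalysisR.VecCalc3 Crest.AnalysisR.PDE.RVM
open Crest.Agent.R106.HR (PX Z6 PZ K6 ee px rho cur Lin MxL Force flx Bd S_GS0 S_LOG)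
open Crest.Agent.R106.Wave (sg e3 D)
open scoped ContDiff InnerProductSpace

/-- sphere measure times Lebesgue measure on the momentum ball -/
def mu (R : ℝ) : Measure Z6 := sg.prod (volume.restrict (closedBall (0 : R3) R))
/-- the compact carrier of `mu R` -/
def KK (R : ℝ) : Set Z6 := sphere (0 : R3) 1 ×ˢ closedBall (0 : R3) R
/-- total mass -/
def vol (R : ℝ) : ℝ := (mu R).real univ
/-- cone point -/
def cp (q : PX) (z : PZ) : PZ := (q.1 - z.1, q.2 + z.1 • z.2.1, z.2.2)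
/-- average over directions and momenta at distance `r` -/
def av (R : ℝ) (h : PZ → ℝ) (r : ℝ) : ℝ := ∫ z, h (r, z) ∂mu R
/-- positive everywhere, equal to `1 + v̂·w` on the sphere -/
def den (z : PZ) : ℝ := (1 + ‖z.2.1‖ ^ 2) / 2 + ⟪relVel z.2.2, z.2.1⟫_ℝ
def lam (e : PX) (z : PZ) : ℝ := (e.1 + ⟪e.2, z.2.1⟫_ℝ) / den z
def bet (e : PX) (z : PZ) : ℝ := lam e z - e.1
def yy (e : PX) (z : PZ) : R3 := e.2 - lam e z • relVel z.2.2
/-- tangential directions on the sphere -/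
def tg (i : Fin 3) (z : PZ) : PZ := (0, e3 i - z.2.1 i • z.2.1, 0)
def Jop (e : PX) (k : PZ → ℝ) (z : PZ) : ℝ :=
  ∑ i, (2 * z.2.1 i * (k z * yy e z i) - fderiv ℝ (fun w => k w * yy e w i) z (tg i z))
def q1 (e : PX) (m : PZ → ℝ) (z : PZ) : ℝ :=
  Jop e m z - m z * bet e z - z.1 * fderiv ℝ (fun w => m w * bet e w) z (1, 0)
/-- kernel times `D_e u` on the cone -/
def Pk (e q : PX) (u k : PZ → ℝ) (z : PZ) : ℝ := k z * fderiv ℝ u (cp q z) (e.1, e.2, 0)
def Gk (e q : PX) (u k : PZ → ℝ) (z : PZ) : ℝ := k z * bet e z * u (cp q z)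
def Rk (e q : PX) (u k : PZ → ℝ) (z : PZ) : ℝ := fderiv ℝ (fun w => k w * bet e w) z (1, 0) * u (cp q z)
def Vk (e q : PX) (H : PZ → R3) (k : PZ → ℝ) (z : PZ) : ℝ :=
  fderiv ℝ (fun w => k w * lam e w) z (0, 0, H (cp q z))
def Tk (e q : PX) (u k : PZ → ℝ) (z : PZ) : ℝ := k z * ∑ i, yy e z i * fderiv ℝ u (cp q z) (tg i z)

/-- the kinetic half of `Lin` -/
structure Kin (R : ℝ) (u : PZ → ℝ) (H : PZ → R3) : Prop where
  su : ContDiff ℝ ∞ u
  sH : ContDiff ℝ ∞ H
  supp : ∀ p : PZ, R ≤ ‖p.2.2‖ → u p = 0 ∧ H p = 0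
  vl : ∀ p : PZ, fderiv ℝ u p (1, relVel p.2.2, 0) + ∑ i, fderiv ℝ H p (0, 0, ee i) i = 0

theorem kin_of_lin {R : ℝ} {u : PZ → ℝ} {H : PZ → R3} {K : PX → K6} (h : Lin R u H K) : Kin R u H :=
  ⟨h.su, h.sH, h.supp, h.vl⟩

instance (R : ℝ) : IsFiniteMeasure (mu R) := by
  have : IsFiniteMeasure (volume.restrict (closedBall (0 : R3) R)) :=
    isFiniteMeasure_restrict.2 measure_closedBall_lt_top.ne
  unfold mu; infer_instance

theorem cpt_KK (R : ℝ) : IsCompact (KK R) := (isCompact_sphere _ _).prod (isCompact_closedBall _ _)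

theorem ae_KK (R : ℝ) : ∀ᵐ z ∂mu R, z ∈ KK R := by
  have hm : MeasurableSet (KK R) := (cpt_KK R).isClosed.measurableSet
  unfold mu
  refine (Measure.ae_prod_iff_ae_ae hm).2 (Wave.sg_ae_mem.mono fun w hw => ?_)
  exact (ae_restrict_mem measurableSet_closedBall).mono fun v hv => ⟨hw, hv⟩

theorem KK_norm {R : ℝ} {z : Z6} (h : z ∈ KK R) : ‖z.1‖ = 1 := mem_sphere_zero_iff_norm.1 h.1
theorem KK_le {R : ℝ} {z : Z6} (h : z ∈ KK R) : ‖z.2‖ ≤ R := mem_closedBall_zero_iff.1 h.2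
theorem vol_nonneg (R : ℝ) : 0 ≤ vol R := measureReal_nonneg

theorem contDiff_relVel : ContDiff ℝ ∞ relVel := by
  unfold relVel
  have h1 : ContDiff ℝ ∞ fun v : R3 => 1 + ‖v‖ ^ 2 := contDiff_const.add (contDiff_norm_sq ℝ)
  refine ContDiff.smul (ContDiff.inv (h1.sqrt fun v => by positivity) fun v => ?_) contDiff_id
  exact (Real.sqrt_pos.2 (by positivity)).ne'

theorem norm_relVel_lt (v : R3) : ‖relVel v‖ < 1 := by
  have h : 0 < Real.sqrt (1 + ‖v‖ ^ 2) := Real.sqrt_pos.2 (by positivity)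
  rw [relVel, norm_smul, Real.norm_eq_abs, abs_of_pos (inv_pos.2 h), inv_mul_lt_iff₀ h, mul_one]
  exact Real.lt_sqrt_of_sq_lt (by linarith)

theorem den_pos (z : PZ) : 0 < den z := by
  have h1 := abs_real_inner_le_norm (relVel z.2.2) z.2.1
  have h2 := norm_relVel_lt z.2.2
  have h3 := norm_nonneg (relVel z.2.2)
  have h4 := neg_abs_le ⟪relVel z.2.2, z.2.1⟫_ℝ
  unfold den
  nlinarith [sq_nonneg (‖z.2.1‖ - ‖relVel z.2.2‖)]

theorem contDiff_cp (q : PX) : ContDiff ℝ ∞ (cp q) := by unfold cp; fun_prop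

theorem contDiff_den : ContDiff ℝ ∞ den := by
  have h1 : ContDiff ℝ ∞ fun z : PZ => ‖z.2.1‖ ^ 2 := (contDiff_norm_sq ℝ).comp (by fun_prop)
  have h2 : ContDiff ℝ ∞ fun z : PZ => relVel z.2.2 := contDiff_relVel.comp (by fun_prop)
  exact ((contDiff_const.add h1).div_const 2).add (h2.inner ℝ (by fun_prop))

theorem contDiff_lam (e : PX) : ContDiff ℝ ∞ (lam e) :=
  (contDiff_const.add (contDiff_const.inner ℝ (by fun_prop))).div contDiff_den fun z => (den_pos z).ne'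

theorem contDiff_bet (e : PX) : ContDiff ℝ ∞ (bet e) := (contDiff_lam e).sub contDiff_const

theorem contDiff_yy (e : PX) : ContDiff ℝ ∞ (yy e) :=
  contDiff_const.sub ((contDiff_lam e).smul (contDiff_relVel.comp (by fun_prop)))

theorem contDiff_yyi (e : PX) (i : Fin 3) : ContDiff ℝ ∞ fun z => yy e z i :=
  (EuclideanSpace.proj (𝕜 := ℝ) i).contDiff.comp (contDiff_yy e)

theorem contDiff_tg (i : Fin 3) : ContDiff ℝ ∞ (tg i) := by unfold tg; fun_prop

/-- `z ↦ Dg(φ z)(a z)` is smooth -/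
theorem contDiff_dapp {X Y V : Type} [NormedAddCommGroup X] [NormedSpace ℝ X] [NormedAddCommGroup Y]
    [NormedSpace ℝ Y] [NormedAddCommGroup V] [NormedSpace ℝ V] {g : X → V} {φ a : Y → X}
    (hg : ContDiff ℝ ∞ g) (hφ : ContDiff ℝ ∞ φ) (ha : ContDiff ℝ ∞ a) :
    ContDiff ℝ ∞ fun z => fderiv ℝ g (φ z) (a z) :=
  ((hg.fderiv_right (m := ∞) (by simp)).comp hφ).clm_apply ha

theorem contDiff_Jop (e : PX) {k : PZ → ℝ} (hk : ContDiff ℝ ∞ k) : ContDiff ℝ ∞ (Jop e k) := by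
  unfold Jop
  refine ContDiff.sum fun i _ => ContDiff.sub (ContDiff.mul (by fun_prop) (hk.mul (contDiff_yyi e i))) ?_
  exact contDiff_dapp (hk.mul (contDiff_yyi e i)) contDiff_id (contDiff_tg i)

theorem contDiff_q1 (e : PX) {m : PZ → ℝ} (hm : ContDiff ℝ ∞ m) : ContDiff ℝ ∞ (q1 e m) :=
  ((contDiff_Jop e hm).sub (hm.mul (contDiff_bet e))).sub (contDiff_fst.mul
    (contDiff_dapp (hm.mul (contDiff_bet e)) contDiff_id contDiff_const))

section
variable (e q : PX) {u k : PZ → ℝ} {H : PZ → R3}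
theorem contDiff_Pk (hu : ContDiff ℝ ∞ u) (hk : ContDiff ℝ ∞ k) : ContDiff ℝ ∞ (Pk e q u k) :=
  hk.mul (contDiff_dapp hu (contDiff_cp q) contDiff_const)
theorem contDiff_Gk (hu : ContDiff ℝ ∞ u) (hk : ContDiff ℝ ∞ k) : ContDiff ℝ ∞ (Gk e q u k) :=
  (hk.mul (contDiff_bet e)).mul (hu.comp (contDiff_cp q))
theorem contDiff_Rk (hu : ContDiff ℝ ∞ u) (hk : ContDiff ℝ ∞ k) : ContDiff ℝ ∞ (Rk e q u k) :=
  (contDiff_dapp (hk.mul (contDiff_bet e)) contDiff_id contDiff_const).mul (hu.comp (contDiff_cp q))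
theorem contDiff_Vk (hH : ContDiff ℝ ∞ H) (hk : ContDiff ℝ ∞ k) : ContDiff ℝ ∞ (Vk e q H k) :=
  contDiff_dapp (hk.mul (contDiff_lam e)) contDiff_id
    (contDiff_const.prodMk (contDiff_const.prodMk (hH.comp (contDiff_cp q))))
theorem contDiff_Tk (hu : ContDiff ℝ ∞ u) (hk : ContDiff ℝ ∞ k) : ContDiff ℝ ∞ (Tk e q u k) :=
  hk.mul (ContDiff.sum fun i _ => (contDiff_yyi e i).mul (contDiff_dapp hu (contDiff_cp q) (contDiff_tg i)))
end

section av
variable {R r : ℝ} {h k : PZ → ℝ}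

theorem integrable_av (hh : Continuous h) (R r : ℝ) : Integrable (fun z => h (r, z)) (mu R) :=
  Wave.integrable_of_contOn (cpt_KK R) (ae_KK R) (by fun_prop)

theorem av_le {c : ℝ} (hc : ∀ z ∈ KK R, |h (r, z)| ≤ c) : |av R h r| ≤ vol R * c := by
  have := norm_integral_le_of_norm_le_const (μ := mu R) (f := fun z => h (r, z)) (C := c)
    ((ae_KK R).mono hc)
  rw [mul_comm]; exact this

theorem av_congr (hc : ∀ z ∈ KK R, h (r, z) = k (r, z)) : av R h r = av R k r :=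
  integral_congr_ae ((ae_KK R).mono hc)

theorem av_add (hh : Continuous h) (hk : Continuous k) :
    av R (fun z => h z + k z) r = av R h r + av R k r :=
  integral_add (integrable_av hh R r) (integrable_av hk R r)

theorem av_sub (hh : Continuous h) (hk : Continuous k) :
    av R (fun z => h z - k z) r = av R h r - av R k r :=
  integral_sub (integrable_av hh R r) (integrable_av hk R r)

theorem av_sum {ι : Type} (s : Finset ι) {g : ι → PZ → ℝ} (hg : ∀ i ∈ s, Continuous (g i)) :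
    av R (fun z => ∑ i ∈ s, g i z) r = ∑ i ∈ s, av R (g i) r :=
  integral_finsetSum s fun i hi => integrable_av (hg i hi) R r

theorem av_mul_r : av R (fun z => z.1 * h z) r = r * av R h r := integral_const_mul r _

theorem av_const_mul (c : ℝ) : av R (fun z => c * h z) r = c * av R h r := integral_const_mul c _

theorem continuous_av (hh : ContDiff ℝ ∞ h) (R : ℝ) : Continuous (av R h) :=
  (Wave.contDiff_int (n := ⊤) (cpt_KK R) (ae_KK R) hh).continuous

theorem hasDerivAt_av (hh : ContDiff ℝ ∞ h) (R r : ℝ) :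
    HasDerivAt (av R h) (av R (fun z => fderiv ℝ h z (1, 0)) r) r := by
  have h1 := ((Wave.contDiff_int (n := ⊤) (cpt_KK R) (ae_KK R) hh).differentiable (by simp) r).hasFDerivAt
  have h2 := Wave.fderiv_int_apply (μ := mu R) (p := r) (cpt_KK R) (ae_KK R)
    (fun _ _ => (hh.of_le (by simp)).contDiffAt) (1 : ℝ)
  have h3 := h1.hasDerivAt
  rw [h2] at h3
  exact h3

end av

end Crest.Agent.R106.GS
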