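import Crest.Agent.R106.GS.Defs

/-! Row 106, block GS: the three integrations by parts and the decomposition of a derivative. -/

set_option autoImplicit false

noncomputable section

namespace Crest.Agent.R106.GS

open MeasureTheory Set Metric Crest.AnalysisR.VecCalc3 Crest.AnalysisR.PDE.RVM
open Crest.Agent.R106.HR (PX Z6 PZ K6 ee px rho cur Lin MxL Force flx Bd S_GS0 S_LOG)
open Crest.Agent.R106.Wave (sg e3 D)
open scoped ContDiff InnerProductSpace

theorem ibpa_w {h : PZ → ℝ} (hh : ContDiff ℝ ∞ h) (r : ℝ) (w v a : R3) :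
    fderiv ℝ (fun x : R3 => h (r, x, v)) w a = fderiv ℝ h (r, w, v) (0, a, 0) := by
  have h1 : HasFDerivAt (fun x : R3 => ((r, x, v) : PZ))
      ((0 : R3 →L[ℝ] ℝ).prod ((ContinuousLinearMap.id ℝ R3).prod (0 : R3 →L[ℝ] R3))) w :=
    (hasFDerivAt_const r w).prodMk ((hasFDerivAt_id w).prodMk (hasFDerivAt_const v w))
  have h2 := (HasFDerivAt.comp (f := fun x : R3 => ((r, x, v) : PZ)) w
    (hh.differentiable (by simp) (r, w, v)).hasFDerivAt h1).fderiv
  have h3 := congrArg (fun L => L a) h2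
  simpa [Function.comp_def] using h3

theorem ibpa_v {h : PZ → ℝ} (hh : ContDiff ℝ ∞ h) (r : ℝ) (w v a : R3) :
    fderiv ℝ (fun x : R3 => h (r, w, x)) v a = fderiv ℝ h (r, w, v) (0, 0, a) := by
  have h1 : HasFDerivAt (fun x : R3 => ((r, w, x) : PZ))
      ((0 : R3 →L[ℝ] ℝ).prod ((0 : R3 →L[ℝ] R3).prod (ContinuousLinearMap.id ℝ R3))) v :=
    (hasFDerivAt_const r v).prodMk ((hasFDerivAt_const w v).prodMk (hasFDerivAt_id v))
  have h2 := (HasFDerivAt.comp (f := fun x : R3 => ((r, w, x) : PZ)) v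
    (hh.differentiable (by simp) (r, w, v)).hasFDerivAt h1).fderiv
  have h3 := congrArg (fun L => L a) h2
  simpa [Function.comp_def] using h3

/-- sphere divergence formula: `integral_prod_symm` (Fubini for `mu`, integrable by `integrable_av`), then for fixed
`(r, v)` `Wave.int_D_tan` for `w ↦ h (r, w, v)` (chain rule: its `fderiv` at `w` applied to `a` is `fderiv ℝ h (r, w, v) (0, a, 0)`). -/
theorem av_tan {h : PZ → ℝ} (hh : ContDiff ℝ ∞ h) (R r : ℝ) (i : Fin 3) :
    av R (fun z => fderiv ℝ h z (tg i z)) r = av R (fun z => 2 * z.2.1 i * h z) r := by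
  have c1 : Continuous fun z : PZ => fderiv ℝ h z (tg i z) :=
    (contDiff_dapp hh contDiff_id (contDiff_tg i)).continuous
  have c2 : Continuous fun z : PZ => 2 * z.2.1 i * h z := by
    have := hh.continuous
    fun_prop
  have i1 := integrable_av c1 R r
  have i2 := integrable_av c2 R r
  unfold av
  unfold mu at i1 i2 ⊢
  rw [integral_prod_symm _ i1, integral_prod_symm _ i2]
  refine integral_congr_ae (Filter.Eventually.of_forall fun v => ?_)
  have hg : ContDiff ℝ 1 fun x : R3 => h (r, x, v) := (hh.of_le (by simp)).comp (by fun_prop)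
  have key := Wave.int_D_tan (fun w _ => hg.contDiffAt) i
  simp only [Wave.D_apply, ibpa_w hh, smul_eq_mul] at key
  exact key

/-- divergence theorem in `v`: `integral_prod`; for fixed `(r, w)` the function `g v = h (r, w, v)` is smooth with compact
support, `fderiv g v b = 0` for `R < ‖v‖` (`setIntegral_eq_integral_of_forall_compl_eq_zero`), and `∫ fderiv g v b = 0`
(`integral_mul_fderiv_eq_neg_fderiv_mul_of_integrable` with the constant `1`, or `integral_fderiv_eq_zero`-type lemma). -/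
theorem av_dv {R : ℝ} {h : PZ → ℝ} (hh : ContDiff ℝ ∞ h) (h0 : ∀ z : PZ, R ≤ ‖z.2.2‖ → h z = 0) (b : R3) (r : ℝ) :
    av R (fun z => fderiv ℝ h z (0, 0, b)) r = 0 := by
  have c1 : Continuous fun z : PZ => fderiv ℝ h z (0, 0, b) :=
    (contDiff_dapp hh contDiff_id contDiff_const).continuous
  have i1 := integrable_av c1 R r
  unfold av
  unfold mu at i1 ⊢
  rw [integral_prod _ i1]
  refine integral_eq_zero_of_ae (Filter.Eventually.of_forall fun w => ?_)
  have hg : ContDiff ℝ 1 fun x : R3 => h (r, w, x) := (hh.of_le (by simp)).comp (by fun_prop)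
  have hc : HasCompactSupport fun x : R3 => h (r, w, x) :=
    HasCompactSupport.intro (isCompact_closedBall (0 : R3) R) fun x hx =>
      h0 _ (not_le.1 fun hh' => hx (mem_closedBall_zero_iff.2 hh')).le
  have key : ∫ x, fderiv ℝ (fun x : R3 => h (r, w, x)) x b = 0 := by
    have hd := hg.differentiable one_ne_zero
    have ci : Integrable fun x => fderiv ℝ (fun x : R3 => h (r, w, x)) x b :=
      ((hg.continuous_fderiv one_ne_zero).clm_apply continuous_const).integrable_of_hasCompactSupport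
        (hc.fderiv_apply ℝ _)
    have := integral_mul_fderiv_eq_neg_fderiv_mul_of_integrable (μ := (volume : Measure R3)) (f := fun _ : R3 => (1 : ℝ))
      (g := fun x : R3 => h (r, w, x)) (v := b) (by simp) (by simpa using ci)
      (by simpa using hg.continuous.integrable_of_hasCompactSupport hc) (by fun_prop) (fun x _ => hd x)
    simpa using this
  simp only [Pi.zero_apply, ← ibpa_v hh]
  rw [setIntegral_eq_integral_of_forall_compl_eq_zero, key]
  intro x hx
  have hx' : R < ‖x‖ := not_le.1 fun hh' => hx (mem_closedBall_zero_iff.2 hh')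
  have he : (fun x : R3 => h (r, w, x)) =ᶠ[nhds x] fun _ => 0 :=
    Filter.Eventually.mono (p := fun y : R3 => R < ‖y‖) ((isOpen_lt continuous_const continuous_norm).mem_nhds hx')
      fun y hy => h0 _ hy.le
  rw [he.fderiv_eq]
  simp

theorem ibpb_hasF (q : PX) (z : PZ) : HasFDerivAt (cp q)
    ((-(ContinuousLinearMap.fst ℝ ℝ Z6)).prod
      (((z.1 • ((ContinuousLinearMap.fst ℝ R3 R3).comp (ContinuousLinearMap.snd ℝ ℝ Z6))) +
        (ContinuousLinearMap.fst ℝ ℝ Z6).smulRight z.2.1).prod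
       ((ContinuousLinearMap.snd ℝ R3 R3).comp (ContinuousLinearMap.snd ℝ ℝ Z6)))) z := by
  have h1 : HasFDerivAt (fun z : PZ => z.1) (ContinuousLinearMap.fst ℝ ℝ Z6) z := hasFDerivAt_fst
  have h2 : HasFDerivAt (fun z : PZ => z.2.1)
      ((ContinuousLinearMap.fst ℝ R3 R3).comp (ContinuousLinearMap.snd ℝ ℝ Z6)) z :=
    ((ContinuousLinearMap.fst ℝ R3 R3).comp (ContinuousLinearMap.snd ℝ ℝ Z6)).hasFDerivAt
  have h3 : HasFDerivAt (fun z : PZ => z.2.2)
      ((ContinuousLinearMap.snd ℝ R3 R3).comp (ContinuousLinearMap.snd ℝ ℝ Z6)) z :=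
    ((ContinuousLinearMap.snd ℝ R3 R3).comp (ContinuousLinearMap.snd ℝ ℝ Z6)).hasFDerivAt
  exact (h1.const_sub q.1).prodMk (((h1.smul h2).const_add q.2).prodMk h3)

/-- derivative of the cone map -/
theorem fderiv_cp_apply (q : PX) (z a : PZ) :
    fderiv ℝ (cp q) z a = (-a.1, a.1 • z.2.1 + z.1 • a.2.1, a.2.2) := by
  rw [(ibpb_hasF q z).fderiv]
  simp [add_comm]

/-- chain rule along the cone map -/
theorem fderiv_cp {V : Type} [NormedAddCommGroup V] [NormedSpace ℝ V] {u : PZ → V} (hu : ContDiff ℝ ∞ u)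
    (q : PX) (z a : PZ) :
    fderiv ℝ (fun w => u (cp q w)) z a = fderiv ℝ u (cp q z) (-a.1, a.1 • z.2.1 + z.1 • a.2.1, a.2.2) := by
  have h := ((hu.differentiable (by simp)) (cp q z)).hasFDerivAt.comp z
    (((contDiff_cp q).differentiable (by simp)) z).hasFDerivAt
  have h' : fderiv ℝ (fun w => u (cp q w)) z = (fderiv ℝ u (cp q z)).comp (fderiv ℝ (cp q) z) := h.fderiv
  rw [h', ContinuousLinearMap.comp_apply, fderiv_cp_apply]

/-- operator norm of the derivative of the cone map on the unit sphere -/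
theorem norm_fderiv_cp (q : PX) {z : PZ} (hz : ‖z.2.1‖ = 1) : ‖fderiv ℝ (cp q) z‖ ≤ 1 + |z.1| := by
  refine ContinuousLinearMap.opNorm_le_bound _ (by positivity) fun a => ?_
  rw [fderiv_cp_apply]
  have h1 : |a.1| ≤ ‖a‖ := norm_fst_le a
  have h2 : ‖a.2.1‖ ≤ ‖a‖ := (norm_fst_le a.2).trans (norm_snd_le a)
  have h3 : ‖a.2.2‖ ≤ ‖a‖ := (norm_snd_le a.2).trans (norm_snd_le a)
  have h0 := norm_nonneg a
  have h4 := abs_nonneg z.1
  have h5 : 0 ≤ |z.1| * ‖a‖ := by positivity
  rw [Prod.norm_def, Prod.norm_def]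
  refine max_le ?_ (max_le ?_ ?_)
  · simp only [norm_neg, Real.norm_eq_abs]; nlinarith
  · refine (norm_add_le _ _).trans ?_
    simp only [norm_smul, Real.norm_eq_abs, hz, mul_one]
    nlinarith [mul_le_mul_of_nonneg_left h2 h4]
  · simp only; nlinarith

/-- the decomposition: `lam * (1 + v̂·w) = e.1 + e.2·w` on the sphere, `∑ i, y i • (e i - w i • w) = y - (y·w) • w` -/
theorem decomp (e : PX) {z : PZ} (hz : ‖z.2.1‖ = 1) :
    ((e.1, e.2, 0) : PZ) = lam e z • ((1, relVel z.2.2, 0) : PZ) + bet e z • ((-1, z.2.1, 0) : PZ) +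
      ∑ i, yy e z i • tg i z := by
  have hd : lam e z * (1 + ⟪relVel z.2.2, z.2.1⟫_ℝ) = e.1 + ⟪e.2, z.2.1⟫_ℝ := by
    have h := den_pos z
    have h2 : den z = 1 + ⟪relVel z.2.2, z.2.1⟫_ℝ := by unfold den; rw [hz]; ring
    rw [lam, ← h2, div_mul_cancel₀ _ h.ne']
  have hy : ∑ i, yy e z i * z.2.1 i = ⟪e.2, z.2.1⟫_ℝ - lam e z * ⟪relVel z.2.2, z.2.1⟫_ℝ := by
    simp only [yy, PiLp.inner_apply, Fin.sum_univ_three, PiLp.sub_apply, PiLp.smul_apply, smul_eq_mul,
      RCLike.inner_apply, conj_trivial]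
    ring
  have hb : bet e z = ∑ i, yy e z i * z.2.1 i := by rw [hy, bet]; linarith
  refine Prod.ext ?_ (Prod.ext ?_ ?_)
  · simp [Fin.sum_univ_three, tg, bet]
  · ext j
    rw [hb]
    fin_cases j <;> simp [Fin.sum_univ_three, tg, yy, e3] <;> ring
  · simp [Fin.sum_univ_three, tg]

end Crest.Agent.R106.GS
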