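import Crest.Agent.R106.GS.IBP

/-! Row 106, block GS: the Glassey-Strauss identity. -/

set_option autoImplicit false

noncomputable section

namespace Crest.Agent.R106.GS

open MeasureTheory Set Metric Crest.AnalysisR.VecCalc3 Crest.AnalysisR.PDE.RVM
open Crest.Agent.R106.HR (PX Z6 PZ K6 ee px rho cur Lin MxL Force flx Bd S_GS0 S_LOG)
open Crest.Agent.R106.Wave (sg e3 D)
open scoped ContDiff InnerProductSpace

variable {R : ℝ} {u k m : PZ → ℝ} {H : PZ → R3}

theorem Ida_mul {a b : PZ → ℝ} (ha : ContDiff ℝ ∞ a) (hb : ContDiff ℝ ∞ b) (z v : PZ) :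
    fderiv ℝ (fun w => a w * b w) z v = fderiv ℝ a z v * b z + a z * fderiv ℝ b z v := by
  have h1 := (ha.differentiable (by simp) z).hasFDerivAt
  have h2 := (hb.differentiable (by simp) z).hasFDerivAt
  have h3 : HasFDerivAt (fun w => a w * b w) _ z := h1.mul h2
  rw [h3.fderiv]
  simp only [add_apply, smul_apply, smul_eq_mul]
  ring

theorem Ida_coord {G : PZ → R3} (hG : ContDiff ℝ ∞ G) (i : Fin 3) (z v : PZ) :
    fderiv ℝ (fun w => G w i) z v = fderiv ℝ G z v i := by
  have h1 := (hG.differentiable (by simp) z).hasFDerivAt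
  have h2 : HasFDerivAt (fun w => G w i) _ z :=
    (EuclideanSpace.proj (𝕜 := ℝ) i : R3 →L[ℝ] ℝ).hasFDerivAt.comp z h1
  rw [h2.fderiv]; rfl

/-- the `S`-term: by `Kin.vl` the left integrand is `- k lam ∑ i, ∂_{v_i} H_i (cp z)`; apply `av_dv` to
`z ↦ k z * lam e z * H (cp q z) i` with `b = ee i`, sum over `i` (`av_sum`, `fderiv_cp`, product rule,
`(0, 0, H) = ∑ i, H i • (0, 0, ee i)` from `Wave.sum_e3`). -/
theorem av_S (hK : Kin R u H) (hk : ContDiff ℝ ∞ k) (e q : PX) (r : ℝ) :
    av R (fun z => k z * lam e z * fderiv ℝ u (cp q z) (1, relVel z.2.2, 0)) r = av R (Vk e q H k) r := by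
  have hg : ContDiff ℝ ∞ fun w => k w * lam e w := hk.mul (contDiff_lam e)
  have hH : ContDiff ℝ ∞ fun w => H (cp q w) := hK.sH.comp (contDiff_cp q)
  have hHi : ∀ i : Fin 3, ContDiff ℝ ∞ fun w => H (cp q w) i := fun i =>
    (EuclideanSpace.proj (𝕜 := ℝ) i).contDiff.comp hH
  have h0 : ∀ i : Fin 3,
      av R (fun z => fderiv ℝ (fun w => (k w * lam e w) * H (cp q w) i) z (0, 0, ee i)) r = 0 := fun i =>
    av_dv (hg.mul (hHi i)) (fun z hz => by
      have := (hK.supp (cp q z) hz).2
      simp only [this, PiLp.zero_apply, mul_zero]) (ee i) r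
  have hc : ∀ i : Fin 3, Continuous
      fun z => fderiv ℝ (fun w => (k w * lam e w) * H (cp q w) i) z (0, 0, ee i) := fun i =>
    (contDiff_dapp (hg.mul (hHi i)) contDiff_id contDiff_const).continuous
  have h1 := av_sum (R := R) (r := r) Finset.univ (fun i _ => hc i)
  simp only [h0, Finset.sum_const_zero] at h1
  have hV := (contDiff_Vk e q hK.sH hk).continuous
  have h2 := av_sub (R := R) (r := r) hV (continuous_finsetSum Finset.univ fun i _ => hc i)
  rw [h1, sub_zero] at h2
  rw [← h2]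
  refine av_congr fun z _ => ?_
  generalize ((r, z) : PZ) = p
  have hv := hK.vl (cp q p)
  have e1 : ((0, 0, H (cp q p)) : PZ) = ∑ i, H (cp q p) i • ((0, 0, ee i) : PZ) := by
    have := Wave.sum_e3 (H (cp q p))
    simp only [Fin.sum_univ_three, Prod.smul_mk, smul_zero, Prod.mk_add_mk, add_zero] at this ⊢
    rw [show ∀ i, ee i = e3 i from fun _ => rfl, show ∀ i, ee i = e3 i from fun _ => rfl,
      show ∀ i, ee i = e3 i from fun _ => rfl, this]
  have e2 : ∀ i : Fin 3, fderiv ℝ (fun w => (k w * lam e w) * H (cp q w) i) p (0, 0, ee i) =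
      fderiv ℝ (fun w => k w * lam e w) p (0, 0, ee i) * H (cp q p) i +
        k p * lam e p * fderiv ℝ H (cp q p) (0, 0, ee i) i := fun i => by
    rw [Ida_mul hg (hHi i), Ida_coord hH, fderiv_cp hK.sH]
    simp
  simp only [e2, Vk]
  rw [e1, map_sum]
  simp only [map_smul, smul_eq_mul, Fin.sum_univ_three] at hv ⊢
  have hv' : fderiv ℝ u (cp q p) (1, relVel p.2.2, 0) = -(fderiv ℝ H (cp q p) (0, 0, ee 0) 0 +
      fderiv ℝ H (cp q p) (0, 0, ee 1) 1 + fderiv ℝ H (cp q p) (0, 0, ee 2) 2) :=
    eq_neg_of_add_eq_zero_left hv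
  rw [hv']; ring

/-- `hasDerivAt_av` for `Gk`: the derivative is `av (Rk + k bet Du(cp z)(-1, w, 0))` (`fderiv_cp`), and on `KK R`
`decomp` gives `Pk = k lam Du (1, v̂, 0) + k bet Du (-1, w, 0) + Tk`; use `av_congr`, `av_add`, `av_S`. -/
theorem gs_deriv (hK : Kin R u H) (hk : ContDiff ℝ ∞ k) (e q : PX) (r : ℝ) :
    HasDerivAt (av R (Gk e q u k))
      (av R (Pk e q u k) r + av R (Rk e q u k) r - av R (Vk e q H k) r - av R (Tk e q u k) r) r := by
  have hu := hK.su
  have hd := hasDerivAt_av (contDiff_Gk e q hu hk) R r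
  have hB : ContDiff ℝ ∞ fun z : PZ => k z * bet e z * fderiv ℝ u (cp q z) (-1, z.2.1, 0) :=
    (hk.mul (contDiff_bet e)).mul (contDiff_dapp hu (contDiff_cp q) (by fun_prop))
  have hS : ContDiff ℝ ∞ fun z : PZ => k z * lam e z * fderiv ℝ u (cp q z) (1, relVel z.2.2, 0) :=
    (hk.mul (contDiff_lam e)).mul (contDiff_dapp hu (contDiff_cp q)
      (contDiff_const.prodMk ((contDiff_relVel.comp (by fun_prop)).prodMk contDiff_const)))
  have h1 : (fun z => fderiv ℝ (Gk e q u k) z (1, 0)) =
      fun z => Rk e q u k z + k z * bet e z * fderiv ℝ u (cp q z) (-1, z.2.1, 0) := by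
    funext z
    have ha : DifferentiableAt ℝ (fun w => k w * bet e w) z :=
      (hk.mul (contDiff_bet e)).differentiable (by simp) z
    have hb : DifferentiableAt ℝ (fun w => u (cp q w)) z :=
      (hu.comp (contDiff_cp q)).differentiable (by simp) z
    have hc := fderiv_cp hu q z (1, 0)
    have : Gk e q u k = fun w => (k w * bet e w) * u (cp q w) := rfl
    rw [this, fderiv_fun_mul ha hb]
    simp only [add_apply, smul_apply, smul_eq_mul, hc, Rk]
    simp only [one_smul, Prod.fst_zero, Prod.snd_zero, smul_zero, add_zero]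
    ring
  have h2 : av R (Pk e q u k) r = av R (fun z => (k z * lam e z * fderiv ℝ u (cp q z) (1, relVel z.2.2, 0) +
      k z * bet e z * fderiv ℝ u (cp q z) (-1, z.2.1, 0)) + Tk e q u k z) r := by
    refine av_congr fun z hz => ?_
    have hz' : ‖((r, z) : PZ).2.1‖ = 1 := KK_norm hz
    generalize ((r, z) : PZ) = y at hz' ⊢
    simp only [Pk, Tk]
    rw [decomp e hz', map_add, map_add, map_smul, map_smul, map_sum]
    simp only [map_smul, smul_eq_mul]
    ring
  rw [av_add (hS.add hB).continuous (contDiff_Tk e q hu hk).continuous,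
    av_add hS.continuous hB.continuous, av_S hK hk] at h2
  rw [h1, av_add (contDiff_Rk e q hu hk).continuous hB.continuous] at hd
  convert hd using 1
  rw [h2]; ring

/-- `av_tan` for `z ↦ k z * yy e z i * u (cp q z)`, summed over `i`; `fderiv_cp` gives the factor `z.1 = r`. -/
theorem gs_tan (hu : ContDiff ℝ ∞ u) (hk : ContDiff ℝ ∞ k) (R : ℝ) (e q : PX) (r : ℝ) :
    r * av R (Tk e q u k) r = av R (fun z => Jop e k z * u (cp q z)) r := by
  have hU : ContDiff ℝ ∞ fun w => u (cp q w) := hu.comp (contDiff_cp q)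
  have hg : ∀ i : Fin 3, ContDiff ℝ ∞ fun w => k w * yy e w i := fun i => hk.mul (contDiff_yyi e i)
  have hc1 : ∀ i : Fin 3, Continuous
      fun z => fderiv ℝ (fun w => (k w * yy e w i) * u (cp q w)) z (tg i z) := fun i =>
    (contDiff_dapp ((hg i).mul hU) contDiff_id (contDiff_tg i)).continuous
  have hc2 : ∀ i : Fin 3, Continuous fun z : PZ => 2 * z.2.1 i * ((k z * yy e z i) * u (cp q z)) := fun i =>
    (show Continuous fun z : PZ => 2 * z.2.1 i by fun_prop).mul ((hg i).mul hU).continuous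
  have h1 := av_sum (R := R) (r := r) Finset.univ (fun i _ => hc1 i)
  have h2 := av_sum (R := R) (r := r) Finset.univ (fun i _ => hc2 i)
  have h3 : ∀ i : Fin 3, av R (fun z => fderiv ℝ (fun w => (k w * yy e w i) * u (cp q w)) z (tg i z)) r =
      av R (fun z : PZ => 2 * z.2.1 i * ((k z * yy e z i) * u (cp q z))) r := fun i =>
    av_tan ((hg i).mul hU) R r i
  simp only [h3] at h1
  rw [← h2] at h1
  have hJ : Continuous fun z => Jop e k z * u (cp q z) := ((contDiff_Jop e hk).mul hU).continuous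
  have h4 := av_sub (R := R) (r := r) (continuous_finsetSum Finset.univ fun i _ => hc1 i)
    (continuous_finsetSum Finset.univ fun i _ => hc2 i)
  rw [h1, sub_self] at h4
  have h5 := av_add (R := R) (r := r) hJ ((continuous_finsetSum Finset.univ fun i _ => hc1 i).sub
    (continuous_finsetSum Finset.univ fun i _ => hc2 i))
  simp only [Pi.sub_def] at h5
  rw [h4, add_zero] at h5
  rw [← h5, ← av_mul_r]
  refine av_congr fun z _ => ?_
  generalize ((r, z) : PZ) = p
  have e2 : ∀ i : Fin 3, fderiv ℝ (fun w => (k w * yy e w i) * u (cp q w)) p (tg i p) =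
      fderiv ℝ (fun w => k w * yy e w i) p (tg i p) * u (cp q p) +
        k p * yy e p i * (p.1 * fderiv ℝ u (cp q p) (tg i p)) := fun i => by
    rw [Ida_mul (hg i) hU, fderiv_cp hu, ← smul_eq_mul p.1, ← map_smul]
    simp [tg]
  simp only [e2, Tk, Jop, Fin.sum_univ_three]
  ring

/-- The Glassey-Strauss identity: `G r = r * av (Gk m) r` has derivative `av (Gk m) r + r * (gs_deriv)`; use `gs_tan`,
`q1 * u = Jop * u - Gk - z.1 * Rk`, `intervalIntegral.integral_eq_sub_of_hasDerivAt`, `continuous_av`. -/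
theorem gs_int (hK : Kin R u H) (hm : ContDiff ℝ ∞ m) (e q : PX) (t : ℝ) :
    ∫ r in (0 : ℝ)..t, r * av R (Pk e q u m) r =
      t * av R (Gk e q u m) t + (∫ r in (0 : ℝ)..t, av R (fun z => q1 e m z * u (cp q z)) r) +
        ∫ r in (0 : ℝ)..t, r * av R (Vk e q H m) r := by
  have hu := hK.su
  have cP := continuous_av (contDiff_Pk e q hu hm) R
  have cG := continuous_av (contDiff_Gk e q hu hm) R
  have cR := continuous_av (contDiff_Rk e q hu hm) R
  have cV := continuous_av (contDiff_Vk e q hK.sH hm) R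
  have cT := continuous_av (contDiff_Tk e q hu hm) R
  have hJ : ContDiff ℝ ∞ fun z => Jop e m z * u (cp q z) := (contDiff_Jop e hm).mul (hu.comp (contDiff_cp q))
  have hQ : ContDiff ℝ ∞ fun z => q1 e m z * u (cp q z) := (contDiff_q1 e hm).mul (hu.comp (contDiff_cp q))
  have cQ := continuous_av hQ R
  have hq : ∀ r, av R (fun z => q1 e m z * u (cp q z)) r =
      r * av R (Tk e q u m) r - av R (Gk e q u m) r - r * av R (Rk e q u m) r := by
    intro r
    have : (fun z => q1 e m z * u (cp q z)) =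
        fun z => (Jop e m z * u (cp q z) - Gk e q u m z) - z.1 * Rk e q u m z := by
      funext z; simp only [q1, Gk, Rk]; ring
    rw [this, av_sub (hJ.sub (contDiff_Gk e q hu hm)).continuous
        (contDiff_fst.mul (contDiff_Rk e q hu hm)).continuous,
      av_sub hJ.continuous (contDiff_Gk e q hu hm).continuous, av_mul_r, gs_tan hu hm]
  have hd : ∀ r ∈ uIcc (0 : ℝ) t, HasDerivAt (fun r => r * av R (Gk e q u m) r)
      (r * av R (Pk e q u m) r - av R (fun z => q1 e m z * u (cp q z)) r - r * av R (Vk e q H m) r) r := by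
    intro r _
    have := (hasDerivAt_id' r).fun_mul (gs_deriv hK hm e q r)
    refine this.congr_deriv ?_
    rw [hq]; ring
  have iP : IntervalIntegrable (fun r => r * av R (Pk e q u m) r) volume 0 t :=
    (continuous_id.mul cP).intervalIntegrable 0 t
  have iV : IntervalIntegrable (fun r => r * av R (Vk e q H m) r) volume 0 t :=
    (continuous_id.mul cV).intervalIntegrable 0 t
  have iQ := cQ.intervalIntegrable (μ := volume) 0 t
  have h := intervalIntegral.integral_eq_sub_of_hasDerivAt hd ((iP.sub iQ).sub iV)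
  rw [intervalIntegral.integral_sub (iP.sub iQ) iV, intervalIntegral.integral_sub iP iQ] at h
  linarith

end Crest.Agent.R106.GS
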