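import Crest.Agent.R106.GS.Defs
import Crest.Agent.R106.Wave.Kirch
import Crest.Agent.R106.Wave.Maxwell

/-! Row 106, block GS: the wave equation for the field and its representation on the cone. -/

set_option autoImplicit false

noncomputable section

namespace Crest.Agent.R106.GS

open MeasureTheory Set Metric Crest.AnalysisR.VecCalc3 Crest.AnalysisR.PDE.RVM
open Crest.Agent.R106.HR (PX Z6 PZ K6 ee px rho cur Lin MxL Force flx Bd S_GS0 S_LOG)
open Crest.Agent.R106.Wave (sg e3 D)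
open scoped ContDiff InnerProductSpace

/-- the four space-time directions -/
def dir : Option (Fin 3) → PX
  | none => (1, 0)
  | some i => (0, ee i)
/-- `box K = ∫ ∑ μ, ∂_μ u • cc μ v dv` -/
def cc : Option (Fin 3) → R3 → K6
  | none => fun v => (-relVel v, 0)
  | some i => fun v => (-ee i, cross3 (ee i) (relVel v))
/-- the scalar kernels -/
def km (l : K6 →L[ℝ] ℝ) (μ : Option (Fin 3)) (z : PZ) : ℝ := l (cc μ z.2.2)
/-- the part of the field that only sees the data -/
def dat (l : K6 →L[ℝ] ℝ) (K : PX → K6) (q : PX) : ℝ :=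
  D Wave.et (Wave.W (Wave.sl (fun p => l (K p)) 0)) q + Wave.W (Wave.sl (D Wave.et fun p => l (K p)) 0) q

theorem contDiff_cc (μ : Option (Fin 3)) : ContDiff ℝ ∞ (cc μ) := by
  cases μ with
  | none => exact contDiff_relVel.neg.prodMk contDiff_const
  | some i => exact contDiff_const.prodMk ((HR.crL i).contDiff.comp contDiff_relVel)

theorem contDiff_km (l : K6 →L[ℝ] ℝ) (μ : Option (Fin 3)) : ContDiff ℝ ∞ (km l μ) :=
  l.contDiff.comp ((contDiff_cc μ).comp (by fun_prop))

variable {R : ℝ} {u : PZ → ℝ} {H : PZ → R3} {K : PX → K6}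

theorem wavea_supp {V : Type} [NormedAddCommGroup V] [NormedSpace ℝ V] {F : PZ → V} (hF : ContDiff ℝ ∞ F)
    (h0 : ∀ p : PZ, R ≤ ‖p.2.2‖ → F p = 0) (e : PX) (p : PZ) (hp : R ≤ ‖p.2.2‖) :
    fderiv ℝ F p (e.1, e.2, 0) = 0 := by
  have hl : HasDerivAt (fun s : ℝ => p + s • ((e.1, e.2, 0) : PZ)) ((e.1, e.2, 0) : PZ) 0 := by
    simpa using ((hasDerivAt_id (0 : ℝ)).smul_const ((e.1, e.2, 0) : PZ)).const_add p
  have h1 : HasFDerivAt F (fderiv ℝ F p) (p + (0 : ℝ) • ((e.1, e.2, 0) : PZ)) := by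
    simpa using (hF.differentiable (by simp) p).hasFDerivAt
  have h2 := h1.comp_hasDerivAt (0 : ℝ) hl
  have h3 : (F ∘ fun s : ℝ => p + s • ((e.1, e.2, 0) : PZ)) = fun _ => 0 := funext fun s => h0 _ (by simpa using hp)
  rw [h3] at h2
  exact h2.unique (hasDerivAt_const _ _)

theorem wavea_restrict {V : Type} [NormedAddCommGroup V] [NormedSpace ℝ V] {g : R3 → V}
    (h0 : ∀ v, R ≤ ‖v‖ → g v = 0) : ∫ v in closedBall (0 : R3) R, g v = ∫ v, g v :=
  setIntegral_eq_integral_of_forall_compl_eq_zero fun v hv =>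
    h0 v (not_le.1 fun h => hv (mem_closedBall_zero_iff.2 h)).le

/-- momentum integrals are smooth and can be differentiated under the integral (restrict to `closedBall 0 R`,
`Wave.contDiff_int`, `Wave.fderiv_int_apply`; `F` and its derivatives vanish for `R < ‖v‖`) -/
theorem mom_smooth {V : Type} [NormedAddCommGroup V] [NormedSpace ℝ V] [CompleteSpace V] {F : PZ → V}
    (hF : ContDiff ℝ ∞ F) (h0 : ∀ p : PZ, R ≤ ‖p.2.2‖ → F p = 0) :
    ContDiff ℝ ∞ (fun q : PX => ∫ v, F (q.1, q.2, v)) ∧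
      ∀ q e : PX, fderiv ℝ (fun q : PX => ∫ v, F (q.1, q.2, v)) q e = ∫ v, fderiv ℝ F (q.1, q.2, v) (e.1, e.2, 0) := by
  haveI : IsFiniteMeasure (volume.restrict (closedBall (0 : R3) R)) :=
    isFiniteMeasure_restrict.2 measure_closedBall_lt_top.ne
  have hK := isCompact_closedBall (0 : R3) R
  have hμ : ∀ᵐ v ∂(volume.restrict (closedBall (0 : R3) R)), v ∈ closedBall (0 : R3) R :=
    ae_restrict_mem measurableSet_closedBall
  let A : PX × R3 →L[ℝ] PZ := (ContinuousLinearEquiv.prodAssoc ℝ ℝ R3 R3 : (ℝ × R3) × R3 →L[ℝ] ℝ × R3 × R3)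
  have hG : ContDiff ℝ ∞ (F ∘ A) := hF.comp A.contDiff
  have e1 : (fun q : PX => ∫ v, F (q.1, q.2, v)) = fun q => ∫ v in closedBall (0 : R3) R, (F ∘ A) (q, v) :=
    funext fun q => (wavea_restrict (R := R) (g := fun v => F (q.1, q.2, v)) fun v hv => h0 (q.1, q.2, v) hv).symm
  rw [e1]
  refine ⟨Wave.contDiff_int (n := ⊤) hK hμ hG, fun q e => ?_⟩
  have e2 := Wave.fderiv_int_apply (F := F ∘ A) (p := q) hK hμ (fun _ _ => (hG.of_le (by simp)).contDiffAt) e
  have e3 := wavea_restrict (R := R) (g := fun v => fderiv ℝ F (q.1, q.2, v) (e.1, e.2, 0))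
    fun v hv => wavea_supp hF h0 e (q.1, q.2, v) hv
  rw [e2, ← e3]
  refine integral_congr_ae (Filter.Eventually.of_forall fun v => ?_)
  show fderiv ℝ (F ∘ A) (q, v) (e, 0) = fderiv ℝ F (q.1, q.2, v) (e.1, e.2, 0)
  rw [fderiv_comp _ (hF.differentiable (by simp) _) A.differentiableAt, A.fderiv]
  rfl

/-- derivatives along `(t, x)` keep the momentum support -/
theorem supp_D {V : Type} [NormedAddCommGroup V] [NormedSpace ℝ V] {F : PZ → V} (hF : ContDiff ℝ ∞ F)
    (h0 : ∀ p : PZ, R ≤ ‖p.2.2‖ → F p = 0) (e : PX) (p : PZ) (hp : R ≤ ‖p.2.2‖) :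
    fderiv ℝ F p (e.1, e.2, 0) = 0 := by
  exact wavea_supp hF h0 e p hp

theorem Wave_b_line {X V : Type} [NormedAddCommGroup X] [NormedSpace ℝ X] [NormedAddCommGroup V] [NormedSpace ℝ V]
    {G : X → V} {p d : X} {c : V} (hG : DifferentiableAt ℝ G p) (h : ∀ s : ℝ, G (p + s • d) = c) : D d G p = 0 := by
  have h1 : HasDerivAt (fun s : ℝ => p + s • d) d 0 := by
    simpa using ((hasDerivAt_id (0 : ℝ)).smul_const d).const_add p
  have h2 : HasFDerivAt G (fderiv ℝ G p) (p + (0 : ℝ) • d) := by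
    rw [zero_smul, add_zero]; exact hG.hasFDerivAt
  have h3 := h2.comp_hasDerivAt (0 : ℝ) h1
  have h4 : (G ∘ fun s : ℝ => p + s • d) = fun _ => c := funext h
  rw [h4] at h3
  exact h3.unique (hasDerivAt_const _ _)

/-- `Lin` is stable under space derivatives (`Wave.D_comm`, `mom_smooth`, `supp_D`; in `vl` the direction
`(1, relVel v, 0)` does not depend on `x`: differentiate the identity `vl` along the line `p + s • (0, a, 0)`) -/
theorem lin_Dx (h : Lin R u H K) (a : R3) :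
    Lin R (fun p => fderiv ℝ u p (0, a, 0)) (fun p => fderiv ℝ H p (0, a, 0)) (fun q => fderiv ℝ K q (0, a)) := by
  have two : ∀ {X V : Type} [NormedAddCommGroup X] [NormedSpace ℝ X] [NormedAddCommGroup V] [NormedSpace ℝ V]
      {g : X → V}, ContDiff ℝ ∞ g → ∀ x, ContDiffAt ℝ 2 g x := fun hg x => (hg.of_le (by norm_cast)).contDiffAt
  have dif : ∀ {X V : Type} [NormedAddCommGroup X] [NormedSpace ℝ X] [NormedAddCommGroup V] [NormedSpace ℝ V]
      {g : X → V}, ContDiff ℝ ∞ g → ∀ x, DifferentiableAt ℝ g x := fun hg x => hg.differentiable (by simp) x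
  have hrv : ContDiff ℝ ∞ fun p : PZ => relVel p.2.2 := contDiff_relVel.comp (by fun_prop)
  have hF : ContDiff ℝ ∞ fun p : PZ => u p • relVel p.2.2 := h.su.smul hrv
  obtain ⟨r1, r2⟩ := mom_smooth (R := R) h.su fun p hp => (h.supp p hp).1
  obtain ⟨c1, c2⟩ := mom_smooth (R := R) hF fun p hp => by rw [(h.supp p hp).1, zero_smul]
  have r1' : ContDiff ℝ ∞ (rho u) := r1
  have c1' : ContDiff ℝ ∞ (cur u) := c1
  have hr : ∀ q, rho (fun p => fderiv ℝ u p (0, a, 0)) q = D ((0 : ℝ), a) (rho u) q := fun q => (r2 q (0, a)).symm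
  have hc : ∀ q, cur (fun p => fderiv ℝ u p (0, a, 0)) q = D ((0 : ℝ), a) (cur u) q := by
    intro q
    refine Eq.trans ?_ (c2 q (0, a)).symm
    refine integral_congr_ae (Filter.Eventually.of_forall fun v => ?_)
    have e1 := Wave.D_smul (dif h.su (q.1, q.2, v)) (dif hrv (q.1, q.2, v)) ((0, a, 0) : PZ)
    have e2 : D ((0, a, 0) : PZ) (fun p : PZ => relVel p.2.2) (q.1, q.2, v) = 0 :=
      Wave_b_line (dif hrv _) (c := relVel v) fun s => by simp
    rw [e2, smul_zero, zero_add] at e1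
    exact e1.symm
  refine ⟨Wave.smooth_D h.su _, Wave.smooth_D h.sH _, Wave.smooth_D h.sK _, fun p hp =>
    ⟨supp_D h.su (fun p hp => (h.supp p hp).1) (0, a) p hp, supp_D h.sH (fun p hp => (h.supp p hp).2) (0, a) p hp⟩,
    fun p => ?_, fun q => ?_⟩
  · have d1 := dif (Wave.smooth_D h.su ((1, relVel p.2.2, 0) : PZ)) p
    have d2 : ∀ i, DifferentiableAt ℝ (D ((0, 0, ee i) : PZ) H) p := fun i => dif (Wave.smooth_D h.sH _) p
    have d3 : ∀ i : Fin 3, DifferentiableAt ℝ (fun y => EuclideanSpace.proj (𝕜 := ℝ) i (D ((0, 0, ee i) : PZ) H y)) p :=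
      fun i => (EuclideanSpace.proj (𝕜 := ℝ) i).differentiableAt.comp p (d2 i)
    have d4 : DifferentiableAt ℝ (fun y => ∑ i : Fin 3, EuclideanSpace.proj (𝕜 := ℝ) i (D ((0, 0, ee i) : PZ) H y)) p :=
      DifferentiableAt.fun_sum fun i _ => d3 i
    have e := Wave_b_line (d := ((0, a, 0) : PZ)) (c := (0 : ℝ)) (d1.fun_add d4) fun s => by
      have := h.vl (p + s • ((0, a, 0) : PZ))
      have e3 : (p + s • ((0, a, 0) : PZ)).2.2 = p.2.2 := by simp
      rw [e3] at this
      exact this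
    rw [Wave.D_add d1 d4, Wave.D_sum _ fun i _ => d3 i, Wave.D_comm (two h.su p)] at e
    refine Eq.trans ?_ e
    congr 1
    refine Finset.sum_congr rfl fun i _ => ?_
    rw [Wave.D_clm _ (d2 i), Wave.D_comm (two h.sH p)]
    rfl
  · rw [hr, hc]
    have d2 : ∀ i, DifferentiableAt ℝ (D (((0 : ℝ), ee i) : PX) K) q := fun i => dif (Wave.smooth_D h.sK _) q
    have key : ∀ (L : Fin 3 → K6 →L[ℝ] ℝ), D (((0 : ℝ), a) : PX) (fun y => ∑ i, L i (D (((0 : ℝ), ee i) : PX) K y)) q =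
        ∑ i, L i (D (((0 : ℝ), ee i) : PX) (D (((0 : ℝ), a) : PX) K) q) := by
      intro L
      have d3 : ∀ i : Fin 3, DifferentiableAt ℝ (fun y => L i (D (((0 : ℝ), ee i) : PX) K y)) q :=
        fun i => (L i).differentiableAt.comp q (d2 i)
      rw [Wave.D_sum _ fun i _ => d3 i]
      refine Finset.sum_congr rfl fun i _ => ?_
      rw [Wave.D_clm _ (d2 i), Wave.D_comm (two h.sK q)]
    refine ⟨?_, ?_, ?_⟩
    · have e : D (((1 : ℝ), (0 : R3)) : PX) K = fun y => ∑ i, HR.rot i (D (((0 : ℝ), ee i) : PX) K y) -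
          ContinuousLinearMap.inl ℝ R3 R3 (cur u y) := funext fun y => (h.mx y).ev
      have d3 : ∀ i : Fin 3, DifferentiableAt ℝ (fun y => HR.rot i (D (((0 : ℝ), ee i) : PX) K y)) q :=
        fun i => (HR.rot i).differentiableAt.comp q (d2 i)
      have e2 : D (((0 : ℝ), a) : PX) (D (((1 : ℝ), (0 : R3)) : PX) K) q = _ := congrArg (fun g => D (((0 : ℝ), a) : PX) g q) e
      have d4 : DifferentiableAt ℝ (fun y => ContinuousLinearMap.inl ℝ R3 R3 (cur u y)) q :=
        (ContinuousLinearMap.inl ℝ R3 R3).differentiableAt.comp q (dif c1' q)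
      rw [Wave.D_comm (two h.sK q), Wave.D_sub (DifferentiableAt.fun_sum fun i _ => d3 i) d4, Wave.D_sum _ fun i _ => d3 i,
        Wave.D_clm _ (dif c1' q)] at e2
      refine e2.trans ?_
      congr 1
      refine Finset.sum_congr rfl fun i _ => ?_
      rw [Wave.D_clm _ (d2 i), Wave.D_comm (two h.sK q)]
      rfl
    · have e : (fun y => ∑ i, ((EuclideanSpace.proj (𝕜 := ℝ) i).comp (ContinuousLinearMap.fst ℝ R3 R3))
          (D (((0 : ℝ), ee i) : PX) K y)) = rho u := funext fun y => (h.mx y).dE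
      rw [← e, key]
      rfl
    · have e : (fun y => ∑ i, ((EuclideanSpace.proj (𝕜 := ℝ) i).comp (ContinuousLinearMap.snd ℝ R3 R3))
          (D (((0 : ℝ), ee i) : PX) K y)) = fun _ => (0 : ℝ) := funext fun y => (h.mx y).dB
      have e2 := key fun i => (EuclideanSpace.proj (𝕜 := ℝ) i).comp (ContinuousLinearMap.snd ℝ R3 R3)
      rw [e] at e2
      refine Eq.trans ?_ (e2.symm.trans ?_)
      · rfl
      · simp [D]

/-- the wave equation: differentiate `MxL.ev` in time, commute, insert `ev` again;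
`∑ i k, rot i (rot k ∂i∂k K) = ΔK - (∇ div E, ∇ div B)`, then `dE`, `dB`. -/
theorem box_K (h : Lin R u H K) (q : PX) :
    Wave.box K q = (-(D Wave.et (cur u) q), 0) +
      ∑ i, (-(D (Wave.ex i) (rho u) q • ee i), cross3 (ee i) (D (Wave.ex i) (cur u) q)) := by
  have hj : ContDiff ℝ ∞ (cur u) :=
    (mom_smooth (R := R) (F := fun p : PZ => u p • relVel p.2.2)
      (h.su.smul (contDiff_relVel.comp (by fun_prop))) (fun p hp => by simp [(h.supp p hp).1])).1
  rw [Wave.box_of_mxL (ρ := rho u) (j := cur u) (h.sK.of_le (WithTop.coe_le_coe.2 (le_top : (2 : ℕ∞) ≤ ⊤))).contDiffAt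
    (hj.differentiable (by simp) q) (Filter.Eventually.of_forall h.mx)]
  simp only [Wave.GrX, Wave.gr_apply, HR.rot_apply]
  have e0 : ∀ i : Fin 3, cross3 (ee i) (0 : R3) = 0 := fun i => (HR.crL i).map_zero
  refine Prod.ext ?_ ?_
  · simp only [Prod.fst_sub, Prod.fst_neg, Prod.fst_sum, Prod.fst_add, e0, Finset.sum_const_zero, sub_zero,
      Finset.sum_neg_distrib]
    rw [sub_eq_add_neg]
    rfl
  · simp only [Prod.snd_sub, Prod.snd_neg, Prod.snd_sum, Prod.snd_add, Finset.sum_const_zero, sub_zero,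
      Finset.sum_neg_distrib, neg_zero, zero_sub, neg_neg, zero_add]

theorem waved_box (hK : ContDiff ℝ ∞ K) (l : K6 →L[ℝ] ℝ) (q : PX) :
    Wave.box (fun p => l (K p)) q = l (Wave.box K q) := by
  have h1 : ∀ e : PX, D e (fun p => l (K p)) = fun p => l (D e K p) := fun e =>
    funext fun p => Wave.D_clm l (hK.differentiable (by simp) p) e
  have h2 : ∀ e : PX, D e (D e fun p => l (K p)) q = l (D e (D e K) q) := fun e => by
    rw [h1, Wave.D_clm l ((Wave.smooth_D hK e).differentiable (by simp) q)]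
  simp only [Wave.box, Wave.LapX, h2, map_sub, map_sum]

theorem waved_cur (h : Lin R u H K) (e q : PX) :
    D e (cur u) q = ∫ v, fderiv ℝ u (q.1, q.2, v) (e.1, e.2, 0) • relVel v := by
  have hr : ContDiff ℝ ∞ fun p : PZ => relVel p.2.2 := contDiff_relVel.comp (by fun_prop)
  refine ((mom_smooth (R := R) (F := fun p : PZ => u p • relVel p.2.2) (h.su.smul hr)
    fun p hp => by rw [(h.supp p hp).1, zero_smul]).2 q e).trans (integral_congr_ae (ae_of_all _ fun v => ?_))
  have h1 : HasFDerivAt (fun p : PZ => relVel p.2.2) ((fderiv ℝ relVel v).comp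
      ((ContinuousLinearMap.snd ℝ R3 R3).comp (ContinuousLinearMap.snd ℝ ℝ Z6))) (q.1, q.2, v) :=
    HasFDerivAt.comp (g := relVel) (q.1, q.2, v) (contDiff_relVel.differentiable (by simp) v).hasFDerivAt
      ((ContinuousLinearMap.snd ℝ R3 R3).comp (ContinuousLinearMap.snd ℝ ℝ Z6)).hasFDerivAt
  have h2 := ((h.su.differentiable (by simp) (q.1, q.2, v)).hasFDerivAt.smul h1).fderiv
  have h3 := congrArg (fun A : PZ →L[ℝ] R3 => A (e.1, e.2, 0)) h2
  refine Eq.trans h3 ?_
  simp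

theorem waved_int (h : Lin R u H K) (e q : PX) :
    Integrable (fun v => fderiv ℝ u (q.1, q.2, v) (e.1, e.2, 0)) ∧
      Integrable fun v => fderiv ℝ u (q.1, q.2, v) (e.1, e.2, 0) • relVel v := by
  have hc : Continuous fun v : R3 => fderiv ℝ u (q.1, q.2, v) (e.1, e.2, 0) :=
    (contDiff_dapp (φ := fun v : R3 => (q.1, q.2, v)) (a := fun _ => (e.1, e.2, 0)) h.su (by fun_prop)
      contDiff_const).continuous
  have h0 : ∀ v ∉ closedBall (0 : R3) R, fderiv ℝ u (q.1, q.2, v) (e.1, e.2, 0) = 0 := fun v hv =>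
    supp_D h.su (fun p hp => (h.supp p hp).1) e _ (le_of_not_ge fun hh => hv (mem_closedBall_zero_iff.2 hh))
  exact ⟨hc.integrable_of_hasCompactSupport (HasCompactSupport.intro (isCompact_closedBall 0 R) h0),
    (hc.smul contDiff_relVel.continuous).integrable_of_hasCompactSupport
      (HasCompactSupport.intro (isCompact_closedBall 0 R) fun v hv => by
        rw [Pi.smul_apply', h0 v hv, zero_smul])⟩

/-- `box_K`, `Wave.D_clm`, `mom_smooth` for `u` and `u • relVel`, linearity of the integral -/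
theorem box_eq (h : Lin R u H K) (l : K6 →L[ℝ] ℝ) (q : PX) :
    Wave.box (fun p => l (K p)) q =
      ∑ μ, ∫ v, l (cc μ v) * fderiv ℝ u (q.1, q.2, v) ((dir μ).1, (dir μ).2, 0) := by
  rw [waved_box h.sK, box_K h, map_add, map_sum, Fintype.sum_option]
  congr 1
  · have h1 := (l.comp (-ContinuousLinearMap.inl ℝ R3 R3)).integral_comp_comm (waved_int h Wave.et q).2
    rw [waved_cur h]
    refine Eq.trans ?_ (h1.symm.trans (integral_congr_ae (ae_of_all _ fun v => ?_)))
    · simp only [ContinuousLinearMap.comp_apply, neg_apply, ContinuousLinearMap.inl_apply, Prod.neg_mk, neg_zero]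
    · have : ((-(fderiv ℝ u (q.1, q.2, v) (1, 0, 0) • relVel v), 0) : K6) =
          fderiv ℝ u (q.1, q.2, v) (1, 0, 0) • ((-relVel v, 0) : K6) := by simp
      simp only [ContinuousLinearMap.comp_apply, neg_apply, ContinuousLinearMap.inl_apply,
        Prod.neg_mk, neg_zero, cc, dir]
      rw [this, map_smul, smul_eq_mul, mul_comm]
  · refine Finset.sum_congr rfl fun i _ => ?_
    have hi := waved_int h (Wave.ex i) q
    have h1 := (l.comp ((ContinuousLinearMap.inr ℝ R3 R3).comp (HR.crL i))).integral_comp_comm hi.2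
    have h2 : D (Wave.ex i) (rho u) q = ∫ v, fderiv ℝ u (q.1, q.2, v) ((Wave.ex i).1, (Wave.ex i).2, 0) :=
      (mom_smooth h.su fun p hp => (h.supp p hp).1).2 q _
    have h3 : ∀ (a : ℝ) (w : R3), l (-(a • ee i), cross3 (ee i) w) =
        a * l (-ee i, 0) + (l.comp ((ContinuousLinearMap.inr ℝ R3 R3).comp (HR.crL i))) w := fun a w => by
      rw [← smul_eq_mul, ← map_smul, ContinuousLinearMap.comp_apply, ← map_add]
      congr 1
      simp [HR.crL_apply]
    rw [waved_cur h, h2, h3, ← h1, ← integral_mul_const, ← integral_add (hi.1.mul_const _)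
      ((l.comp ((ContinuousLinearMap.inr ℝ R3 R3).comp (HR.crL i))).integrable_comp hi.2)]
    refine integral_congr_ae (ae_of_all _ fun v => ?_)
    have h4 := h3 1 (relVel v)
    simp only [one_smul, one_mul] at h4
    simp only [map_smul, smul_eq_mul, cc, dir]
    rw [h4]
    exact (mul_add _ _ _).symm.trans (mul_comm _ _)

/-- `Wave.S` in terms of `av` (`integral_prod`, `setIntegral_eq_integral_of_forall_compl_eq_zero`) -/
theorem S_eq {g : R3 → ℝ} {h : PZ → ℝ} (hg : Continuous g) (hh : Continuous h)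
    (h0 : ∀ p : PZ, R ≤ ‖p.2.2‖ → h p = 0) (q : PX) :
    Wave.S (fun p : PX => ∫ v, g v * h (p.1, p.2, v)) q =
      ∫ r in (0 : ℝ)..q.1, r * av R (fun z => g z.2.2 * h (cp q z)) r := by
  haveI : IsFiniteMeasure (volume.restrict (closedBall (0 : R3) R)) :=
    isFiniteMeasure_restrict.2 measure_closedBall_lt_top.ne
  refine intervalIntegral.integral_congr fun r _ => ?_
  have hc : Continuous fun z : PZ => g z.2.2 * h (cp q z) :=
    (hg.comp (by fun_prop)).mul (hh.comp (contDiff_cp q).continuous)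
  have hi := integrable_av hc R r
  show r * _ = r * _
  congr 1
  unfold av
  unfold mu at hi ⊢
  rw [integral_prod _ hi]
  refine integral_congr_ae (Filter.Eventually.of_forall fun w => ?_)
  exact (wavea_restrict (R := R) (g := fun v => g v * h (q.1 - r, q.2 + r • w, v))
    fun v hv => by rw [h0 (q.1 - r, q.2 + r • w, v) hv, mul_zero]).symm

/-- representation on the cone: `Wave.kirchhoff`, `box_eq`, `Wave.S_sum`, `S_eq` (with `supp_D`, `mom_smooth` for continuity) -/
theorem rep (h : Lin R u H K) (l : K6 →L[ℝ] ℝ) (q : PX) :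
    l (K q) = dat l K q + ∑ μ, ∫ r in (0 : ℝ)..q.1, r * av R (Pk (dir μ) q u (km l μ)) r := by
  have hK : ContDiff ℝ 2 fun p => l (K p) := l.contDiff.comp (h.sK.of_le (by norm_cast))
  have hd : ∀ μ, ContDiff ℝ ∞ fun p : PZ => fderiv ℝ u p ((dir μ).1, (dir μ).2, 0) := fun μ =>
    contDiff_dapp h.su contDiff_id contDiff_const
  have h0 : ∀ μ (p : PZ), R ≤ ‖p.2.2‖ → fderiv ℝ u p ((dir μ).1, (dir μ).2, 0) = 0 := fun μ =>
    supp_D h.su (fun p hp => (h.supp p hp).1) (dir μ)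
  have hc : ∀ μ, Continuous fun p : PX => ∫ v, l (cc μ v) * fderiv ℝ u (p.1, p.2, v) ((dir μ).1, (dir μ).2, 0) :=
    fun μ => (mom_smooth (R := R) (F := fun p : PZ => km l μ p * fderiv ℝ u p ((dir μ).1, (dir μ).2, 0))
      ((contDiff_km l μ).mul (hd μ)) fun p hp => by rw [h0 μ p hp, mul_zero]).1.continuous
  have e := Wave.kirchhoff hK q
  rw [funext (box_eq h l), Wave.S_sum _ fun μ _ => hc μ] at e
  rw [e, dat]
  congr 1
  refine Finset.sum_congr rfl fun μ _ => ?_
  exact S_eq (R := R) (g := fun v => l (cc μ v)) (h := fun p => fderiv ℝ u p ((dir μ).1, (dir μ).2, 0))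
    (l.continuous.comp (contDiff_cc μ).continuous) (hd μ).continuous (h0 μ) q

theorem datle_cur (h : Lin R u H K) {a : ℝ} (hu : ∀ z, |u (0, z)| ≤ a) (x : R3) :
    ‖cur u (0, x)‖ ≤ a * (volume : Measure R3).real (closedBall (0 : R3) R) := by
  have ha : 0 ≤ a := (abs_nonneg _).trans (hu 0)
  have h1 : cur u (0, x) = ∫ v in closedBall (0 : R3) R, u (0, x, v) • relVel v := by
    refine (setIntegral_eq_integral_of_forall_compl_eq_zero fun v hv => ?_).symm
    have hv' : R ≤ ‖v‖ := (not_le.1 fun h' => hv (mem_closedBall_zero_iff.2 h')).le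
    rw [(h.supp (0, x, v) hv').1, zero_smul]
  rw [h1]
  refine norm_setIntegral_le_of_norm_le_const measure_closedBall_lt_top fun v _ => ?_
  rw [norm_smul, Real.norm_eq_abs]
  calc |u (0, x, v)| * ‖relVel v‖ ≤ a * 1 :=
        mul_le_mul (hu (x, v)) (norm_relVel_lt v).le (norm_nonneg _) ha
    _ = a := mul_one a

theorem datle_dt (h : Lin R u H K) {a : ℝ} (hb : Bd 1 (HR.sl K 0) a) (hu : ∀ z, |u (0, z)| ≤ a) (x : R3) :
    ‖fderiv ℝ K (0, x) (1, 0)‖ ≤ (∑ i, ‖HR.rot i‖ + (volume : Measure R3).real (closedBall (0 : R3) R)) * a := by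
  have hd : DifferentiableAt ℝ K (0, x) := h.sK.differentiable (by simp) _
  have h1 : ‖fderiv ℝ (HR.sl K 0) x‖ ≤ a := by
    have := hb 1 le_rfl x
    rwa [norm_iteratedFDeriv_one] at this
  have h2 : ∀ i, ‖fderiv ℝ K (0, x) (0, ee i)‖ ≤ a := fun i => by
    have h3 : fderiv ℝ (HR.sl K 0) x (ee i) = fderiv ℝ K (0, x) (0, ee i) := Wave.D_sl hd (ee i)
    rw [← h3]
    refine ((fderiv ℝ (HR.sl K 0) x).le_opNorm _).trans ?_
    have h4 : ‖ee i‖ = 1 := by simp [ee]
    rw [h4, mul_one]; exact h1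
  rw [(h.mx (0, x)).ev, add_mul, Finset.sum_mul]
  refine (norm_sub_le _ _).trans (add_le_add ((norm_sum_le _ _).trans (Finset.sum_le_sum fun i _ => ?_)) ?_)
  · exact ((HR.rot i).le_opNorm _).trans (mul_le_mul_of_nonneg_left (h2 i) (norm_nonneg _))
  · have := datle_cur h hu x
    rw [Prod.norm_mk, norm_zero, max_eq_left (norm_nonneg _), mul_comm]
    exact this

/-- the data term: `Wave.norm_Dt_W_le`, `Wave.norm_W_le`, and `MxL.ev` at `t = 0`:
`‖∂ₜ K (0, x)‖ ≤ C a` because `‖cur u (0, x)‖ ≤ a * volume (closedBall 0 R)` (`norm_relVel_lt`). -/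
theorem dat_le (R T : ℝ) (l : K6 →L[ℝ] ℝ) : ∃ C : ℝ, 0 ≤ C ∧ ∀ (u : PZ → ℝ) (H : PZ → R3) (K : PX → K6), Lin R u H K →
    ∀ a : ℝ, Bd 1 (HR.sl K 0) a → (∀ z, |u (0, z)| ≤ a) → ∀ q : PX, q.1 ∈ Icc 0 T → |dat l K q| ≤ C * a := by
  set c : ℝ := ∑ i, ‖HR.rot i‖ + (volume : Measure R3).real (closedBall (0 : R3) R) with hc
  have hc0 : 0 ≤ c := add_nonneg (Finset.sum_nonneg fun _ _ => norm_nonneg _) measureReal_nonneg
  refine ⟨‖l‖ * (1 + |T| + |T| * c), by positivity, fun u H K h a hb hu q hq => ?_⟩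
  have ha : 0 ≤ a := (abs_nonneg _).trans (hu 0)
  have hK : ContDiff ℝ ∞ K := h.sK
  have hsl : ContDiff ℝ ∞ (HR.sl K 0) := Wave.contDiff_sl hK 0
  have hqT : |q.1| ≤ |T| := by rw [abs_of_nonneg hq.1]; exact hq.2.trans (le_abs_self T)
  have e1 : Wave.sl (fun p => l (K p)) 0 = fun x => l (HR.sl K 0 x) := rfl
  have h1 : ‖D Wave.et (Wave.W (Wave.sl (fun p => l (K p)) 0)) q‖ ≤ ‖l‖ * a + |q.1| * (‖l‖ * a) := by
    rw [e1]
    refine Wave.norm_Dt_W_le ((l.contDiff.comp hsl).of_le (by simp)) (fun y => ?_) (fun y => ?_) q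
    · have := hb 0 (by norm_num) y
      rw [norm_iteratedFDeriv_zero] at this
      exact (l.le_opNorm _).trans (mul_le_mul_of_nonneg_left this (norm_nonneg _))
    · have := hb 1 le_rfl y
      rw [norm_iteratedFDeriv_one] at this
      rw [(l.hasFDerivAt.comp y (hsl.differentiable (by simp) y).hasFDerivAt).fderiv]
      exact (l.opNorm_comp_le _).trans (mul_le_mul_of_nonneg_left this (norm_nonneg _))
  have h2 : ‖Wave.W (Wave.sl (D Wave.et fun p => l (K p)) 0) q‖ ≤ |q.1| * (‖l‖ * (c * a)) := by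
    refine Wave.norm_W_le (fun y => ?_) q
    have h3 : Wave.sl (D Wave.et fun p => l (K p)) 0 y = l (fderiv ℝ K (0, y) (1, 0)) :=
      Wave.D_clm l (hK.differentiable (by simp) _) _
    rw [h3]
    exact (l.le_opNorm _).trans (mul_le_mul_of_nonneg_left (datle_dt h hb hu y) (norm_nonneg _))
  have h4 : |dat l K q| ≤ ‖l‖ * a + |q.1| * (‖l‖ * a) + |q.1| * (‖l‖ * (c * a)) :=
    (norm_add_le _ _).trans (add_le_add h1 h2)
  have h5 : 0 ≤ ‖l‖ * a := by positivity
  have h6 : 0 ≤ ‖l‖ * (c * a) := by positivity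
  calc |dat l K q| ≤ ‖l‖ * a + |T| * (‖l‖ * a) + |T| * (‖l‖ * (c * a)) :=
        h4.trans (add_le_add (add_le_add le_rfl (mul_le_mul_of_nonneg_right hqT h5))
          (mul_le_mul_of_nonneg_right hqT h6))
    _ = ‖l‖ * (1 + |T| + |T| * c) * a := by ring

end Crest.Agent.R106.GS
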