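import Crest.Agent.R106.GS.Bound
import Crest.Agent.R106.GS.Wave

/-! Row 106, block GS: the logarithmic estimate, term by term. -/

set_option autoImplicit false

noncomputable section

namespace Crest.Agent.R106.GS

open MeasureTheory Set Metric Crest.AnalysisR.VecCalc3 Crest.AnalysisR.PDE.RVM
open Crest.Agent.R106.HR (PX Z6 PZ K6 ee px rho cur Lin MxL Force flx Bd S_GS0 S_LOG)
open Crest.Agent.R106.Wave (sg e3 D)
open scoped ContDiff InnerProductSpace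

/-- the standing hypotheses of `S_LOG` at the point `q` -/
structure LogH (R T M N : ℝ) (A : PZ → K6 →L[ℝ] R3) (f : PZ → ℝ) (K : PX → K6) (φ : ℝ → ℝ) (q : PX) : Prop where
  sK : ContDiff ℝ ∞ K
  kin : Kin R f (flx A K f)
  bM : ∀ s ∈ Icc 0 T, (∀ z, |f (s, z)| ≤ M) ∧ ∀ x, ‖K (s, x)‖ ≤ M
  hN : 1 ≤ N
  cφ : Continuous φ
  hq : q.1 ∈ Icc 0 T
  bN : ∀ s ∈ Icc 0 q.1, ∀ (z : Z6) (a : Fin 3), |fderiv ℝ f (s, z) (0, ee a, 0)| ≤ N
  bφ : ∀ s ∈ Icc 0 q.1, ∀ x, ‖fderiv ℝ K (s, x)‖ ≤ φ s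

theorem loga_bd {E F : Type} [NormedAddCommGroup E] [NormedSpace ℝ E] [NormedAddCommGroup F] [NormedSpace ℝ F]
    {A : E → F} (h1 : ContDiff ℝ ∞ A) (h2 : HasCompactSupport A) :
    ∃ a : ℝ, 0 ≤ a ∧ (∀ p, ‖A p‖ ≤ a) ∧ ∀ p, ‖fderiv ℝ A p‖ ≤ a := by
  obtain ⟨a, ha⟩ := h2.exists_bound_of_continuous h1.continuous
  obtain ⟨b, hb⟩ := (h2.fderiv (𝕜 := ℝ)).exists_bound_of_continuous (h1.continuous_fderiv (by simp))
  exact ⟨max a b, (norm_nonneg _).trans ((ha 0).trans (le_max_left _ _)), fun p => (ha p).trans (le_max_left _ _),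
    fun p => (hb p).trans (le_max_right _ _)⟩

/-- the flux is bounded (`A` is continuous with compact support) -/
theorem flx_le {R : ℝ} {A : PZ → K6 →L[ℝ] R3} (hA : Force R A) :
    ∃ a : ℝ, 0 ≤ a ∧ (∀ p, ‖A p‖ ≤ a) ∧ ∀ p, ‖fderiv ℝ A p‖ ≤ a := by
  exact loga_bd hA.sm hA.cs

/-- T-term: the integrand is `Pk (0, ee a) q f k`; `gb2` with `ε = 1 / N`, `N₁ = N`, `N₀ = M + a * M * M`, `bd_cpt` for `k` -/
theorem log_T (R T M : ℝ) {A : PZ → K6 →L[ℝ] R3} (hA : Force R A) {k : PZ → ℝ} (hk : ContDiff ℝ ∞ k) (a : Fin 3) :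
    ∃ C : ℝ, 0 ≤ C ∧ ∀ (N : ℝ) (f : PZ → ℝ) (K : PX → K6) (φ : ℝ → ℝ) (q : PX), LogH R T M N A f K φ q →
      |∫ r in (0 : ℝ)..q.1, av R (fun z => k z * fderiv ℝ f (cp q z) (0, ee a, 0)) r| ≤ C * (1 + Real.log N) := by
  obtain ⟨C, hC, hb⟩ := gb2 R T ((0 : ℝ), ee a)
  obtain ⟨c, hc, hk'⟩ := bd_cpt hk R T
  obtain ⟨b, hb0, hb1, -⟩ := flx_le hA
  refine ⟨C * c * (1 + |M + b * M * M|), by positivity, fun N f K φ q h => ?_⟩
  have hN := h.hN
  have hN0 : 0 < N := by linarith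
  have hM : 0 ≤ M := (abs_nonneg _).trans ((h.bM 0 ⟨le_rfl, h.hq.1.trans h.hq.2⟩).1 0)
  have h1 := hb f (flx A K f) h.kin k hk q h.hq c (M + b * M * M) N (1 / N) hc (by positivity)
    (by rw [div_le_one hN0]; exact hN) (fun r hr z hz => hk' r ⟨hr.1, hr.2.trans h.hq.2⟩ z hz) fun s hs z => by
      have hs' : s ∈ Icc 0 T := ⟨hs.1, hs.2.trans h.hq.2⟩
      have h2 := (h.bM s hs').1 z
      have h3 := (h.bM s hs').2 z.1
      refine ⟨h2.trans (le_add_of_nonneg_right (by positivity)), ?_, h.bN s hs z a⟩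
      have h4 : ‖A (s, z) (K (px (s, z)))‖ ≤ b * M :=
        ((A (s, z)).le_opNorm _).trans (mul_le_mul (hb1 _) h3 (norm_nonneg _) hb0)
      rw [flx, norm_smul, Real.norm_eq_abs]
      have h5 := mul_le_mul h2 h4 (norm_nonneg _) hM
      nlinarith
  refine le_trans h1 ?_
  have hl := Real.log_nonneg hN
  have h6 : 0 ≤ M + b * M * M := by positivity
  rw [one_div_mul_cancel hN0.ne', one_div, Real.log_inv, abs_of_nonneg h6, mul_assoc (C * c)]
  refine mul_le_mul_of_nonneg_left ?_ (by positivity)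
  nlinarith

/-- the kernel of the S-term: `L z` is a smooth family of linear forms in the force -/
def m2 (L : PZ → R3 →L[ℝ] ℝ) (A : PZ → K6 →L[ℝ] R3) (K : PX → K6) (q : PX) (z : PZ) : ℝ :=
  L z (A (cp q z) (K (px (cp q z))))

/-- `bd_cpt` for `L`, `flx_le`, `norm_fderiv_cp`, `‖px‖ ≤ 1`, product rule `fderiv_clm_apply` -/
theorem m2_le (R T M : ℝ) {A : PZ → K6 →L[ℝ] R3} (hA : Force R A) {L : PZ → R3 →L[ℝ] ℝ} (hL : ContDiff ℝ ∞ L) :
    ∃ c : ℝ, 0 ≤ c ∧ ∀ (N : ℝ) (f : PZ → ℝ) (K : PX → K6) (φ : ℝ → ℝ) (q : PX), LogH R T M N A f K φ q →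
      ContDiff ℝ ∞ (m2 L A K q) ∧ ∀ r ∈ Icc 0 q.1, ∀ z ∈ KK R,
        |m2 L A K q (r, z)| ≤ c ∧ ‖fderiv ℝ (m2 L A K q) (r, z)‖ ≤ c * (1 + |φ (q.1 - r)|) ∧
        ∀ a : Fin 3, |L (r, z) (fderiv ℝ (fun p => A p (K (px p))) (cp q (r, z)) (0, ee a, 0))| ≤
          c * (1 + |φ (q.1 - r)|) := by
  obtain ⟨a, ha, hA0, hA1⟩ := flx_le hA
  obtain ⟨l, hl, hL0⟩ := bd_cpt hL R T
  set c₁ : ℝ := a * (|M| + 1) with hc₁
  have c₁0 : 0 ≤ c₁ := by positivity
  refine ⟨l * c₁ * (2 + |T|), by positivity, fun N f K φ q H => ?_⟩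
  have hG : ContDiff ℝ ∞ fun p : PZ => A p (K (px p)) := hA.sm.clm_apply (H.sK.comp px.contDiff)
  have hGc : ContDiff ℝ ∞ fun z : PZ => A (cp q z) (K (px (cp q z))) := hG.comp (contDiff_cp q)
  refine ⟨hL.clm_apply hGc, fun r hr z hz => ?_⟩
  have hrT : r ∈ Icc 0 T := ⟨hr.1, hr.2.trans H.hq.2⟩
  have hs : q.1 - r ∈ Icc 0 q.1 := ⟨sub_nonneg.2 hr.2, sub_le_self _ hr.1⟩
  obtain ⟨l0, l1⟩ := hL0 r hrT z hz
  set p := cp q (r, z) with hp
  set Φ := |φ (q.1 - r)| with hΦ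
  have Φ0 : 0 ≤ Φ := abs_nonneg _
  have k0 : ‖K (px p)‖ ≤ |M| := ((H.bM _ ⟨hs.1, hs.2.trans H.hq.2⟩).2 _).trans (le_abs_self M)
  have k1 : ‖fderiv ℝ K (px p)‖ ≤ Φ := (H.bφ _ hs _).trans (le_abs_self _)
  have hpx : ‖px‖ ≤ 1 := px.opNorm_le_bound zero_le_one fun y => by
    rw [one_mul]
    exact max_le (le_max_left _ _) ((norm_fst_le y.2).trans (le_max_right _ _))
  have g0 : ‖A p (K (px p))‖ ≤ c₁ := ((A p).le_opNorm _).trans (mul_le_mul (hA0 p) (by linarith) (norm_nonneg _) ha)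
  have dK : HasFDerivAt (fun y : PZ => K (px y)) ((fderiv ℝ K (px p)).comp px) p :=
    (H.sK.differentiable (by simp) _).hasFDerivAt.comp p px.hasFDerivAt
  have g1 : ‖fderiv ℝ (fun y : PZ => A y (K (px y))) p‖ ≤ c₁ * (1 + Φ) := by
    rw [((hA.sm.differentiable (by simp) p).hasFDerivAt.clm_apply dK).fderiv]
    refine (norm_add_le _ _).trans ?_
    have e1 : ‖(A p).comp ((fderiv ℝ K (px p)).comp px)‖ ≤ a * Φ :=
      (ContinuousLinearMap.opNorm_comp_le _ _).trans (mul_le_mul (hA0 p)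
        ((ContinuousLinearMap.opNorm_comp_le _ _).trans (by nlinarith [norm_nonneg (fderiv ℝ K (px p))])) (norm_nonneg _) ha)
    have e2 : ‖(fderiv ℝ A p).flip (K (px p))‖ ≤ a * |M| :=
      (ContinuousLinearMap.le_opNorm _ _).trans (mul_le_mul (by rw [ContinuousLinearMap.opNorm_flip]; exact hA1 p) k0
        (norm_nonneg _) ha)
    have : 0 ≤ a * |M| * Φ := by positivity
    nlinarith
  have lc : 0 ≤ l * c₁ := by positivity
  have T0 : 0 ≤ |T| := abs_nonneg T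
  refine ⟨?_, ?_, fun i => ?_⟩
  · have : |m2 L A K q (r, z)| ≤ l * c₁ := ((L (r, z)).le_opNorm _).trans (mul_le_mul l0 g0 (norm_nonneg _) hl)
    nlinarith
  · have dG : HasFDerivAt (fun y : PZ => A (cp q y) (K (px (cp q y))))
        ((fderiv ℝ (fun y : PZ => A y (K (px y))) p).comp (fderiv ℝ (cp q) (r, z))) (r, z) :=
      HasFDerivAt.comp (g := fun y : PZ => A y (K (px y))) (f := cp q) (r, z) (hG.differentiable (by simp) p).hasFDerivAt
        ((contDiff_cp q).differentiable (by simp) _).hasFDerivAt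
    have e := ((hL.differentiable (by simp) (r, z)).hasFDerivAt.clm_apply dG).fderiv
    have n1 : ‖fderiv ℝ (cp q) (r, z)‖ ≤ 1 + |T| :=
      (norm_fderiv_cp q (z := (r, z)) (KK_norm hz)).trans (by
        have : |r| ≤ |T| := abs_le_abs_of_nonneg hr.1 hrT.2
        simpa using this)
    have e1 : ‖(L (r, z)).comp ((fderiv ℝ (fun y : PZ => A y (K (px y))) p).comp (fderiv ℝ (cp q) (r, z)))‖ ≤
        l * (c₁ * (1 + Φ) * (1 + |T|)) :=
      (ContinuousLinearMap.opNorm_comp_le _ _).trans (mul_le_mul l0 ((ContinuousLinearMap.opNorm_comp_le _ _).trans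
        (mul_le_mul g1 n1 (norm_nonneg _) (by positivity))) (norm_nonneg _) hl)
    have e2 : ‖(fderiv ℝ L (r, z)).flip (A p (K (px p)))‖ ≤ l * c₁ :=
      (ContinuousLinearMap.le_opNorm _ _).trans (mul_le_mul (by rw [ContinuousLinearMap.opNorm_flip]; exact l1) g0
        (norm_nonneg _) hl)
    have : ‖fderiv ℝ (m2 L A K q) (r, z)‖ ≤ l * (c₁ * (1 + Φ) * (1 + |T|)) + l * c₁ := by
      unfold m2
      rw [e]
      exact (norm_add_le _ _).trans (add_le_add e1 e2)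
    have := mul_nonneg lc Φ0
    nlinarith
  · have n1 : ‖((0, ee i, 0) : PZ)‖ ≤ 1 := by simp [Prod.norm_def, ee]
    have : |L (r, z) (fderiv ℝ (fun p => A p (K (px p))) p (0, ee i, 0))| ≤ l * (c₁ * (1 + Φ) * 1) :=
      ((L (r, z)).le_opNorm _).trans (mul_le_mul l0 ((ContinuousLinearMap.le_opNorm _ _).trans
        (mul_le_mul g1 n1 (norm_nonneg _) (by positivity))) (norm_nonneg _) hl)
    have h2 : 0 ≤ l * c₁ * (1 + Φ) * (1 + |T|) := by positivity
    nlinarith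

/-- S-term: `D_a (flx A K f) = D_a f • A K + f • D_a (A K)`; the first part is `Pk (0, ee a) q f (m2 L A K q)` (`gb1` with
constant `φ`, `ψ r = c * (1 + |φ (q.1 - r)|)`), the second is bounded by `av_le`; `0 ≤ φ` on `[0, q.1]` by `bφ`,
`intervalIntegral.integral_comp_sub_left`. -/
theorem log_V (R T M : ℝ) {A : PZ → K6 →L[ℝ] R3} (hA : Force R A) {L : PZ → R3 →L[ℝ] ℝ} (hL : ContDiff ℝ ∞ L)
    (a : Fin 3) :
    ∃ C : ℝ, 0 ≤ C ∧ ∀ (N : ℝ) (f : PZ → ℝ) (K : PX → K6) (φ : ℝ → ℝ) (q : PX), LogH R T M N A f K φ q →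
      |∫ r in (0 : ℝ)..q.1, r * av R (fun z => L z (fderiv ℝ (flx A K f) (cp q z) (0, ee a, 0))) r| ≤
        C * (1 + ∫ s in (0 : ℝ)..q.1, φ s) := by
  obtain ⟨a0, ha0, hA1, -⟩ := flx_le hA
  obtain ⟨c, hc, hm⟩ := m2_le R T M hA hL
  obtain ⟨C, hC, hgb⟩ := gb1 R T (0, ee a)
  have hv := vol_nonneg R
  refine ⟨C * (c * |M| + (|M| + |M| * (a0 * |M|)) * c * (2 * |T| + 1)) + |T| * vol R * |M| * c * (|T| + 1), by positivity,
    fun N f K φ q h => ?_⟩
  obtain ⟨hm1, hm2⟩ := hm N f K φ q h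
  have hq := h.hq
  have hf := h.kin.su
  have hφ := h.cφ
  have hg : ContDiff ℝ ∞ fun p : PZ => A p (K (px p)) := hA.sm.clm_apply (h.sK.comp px.contDiff)
  have hG : ContDiff ℝ ∞ fun z : PZ => f (cp q z) * L z (fderiv ℝ (fun p => A p (K (px p))) (cp q z) (0, ee a, 0)) :=
    (hf.comp (contDiff_cp q)).mul (hL.clm_apply (contDiff_dapp hg (contDiff_cp q) contDiff_const))
  have hP := contDiff_Pk (0, ee a) q hf hm1
  have hdec : (fun z : PZ => L z (fderiv ℝ (flx A K f) (cp q z) (0, ee a, 0))) = fun z =>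
      Pk (0, ee a) q f (m2 L A K q) z +
        f (cp q z) * L z (fderiv ℝ (fun p => A p (K (px p))) (cp q z) (0, ee a, 0)) := by
    funext z
    have h1 := Wave.D_smul (hf.differentiable (by simp) (cp q z)) (hg.differentiable (by simp) (cp q z)) (0, ee a, 0)
    simp only [Wave.D_apply] at h1
    have h2 : flx A K f = fun y => f y • A y (K (px y)) := rfl
    rw [h2, h1, map_add, map_smul, map_smul]
    simp only [Pk, m2, smul_eq_mul]
    ring
  have hφ0 : ∀ s ∈ Icc 0 q.1, 0 ≤ φ s := fun s hs => (norm_nonneg _).trans (h.bφ s hs 0)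
  have hI0 : 0 ≤ ∫ s in (0 : ℝ)..q.1, φ s := intervalIntegral.integral_nonneg hq.1 hφ0
  have hJ : ∫ r in (0 : ℝ)..q.1, |φ (q.1 - r)| = ∫ s in (0 : ℝ)..q.1, φ s := by
    rw [intervalIntegral.integral_comp_sub_left (fun s => |φ s|) q.1, sub_self, sub_zero]
    refine intervalIntegral.integral_congr fun s hs => abs_of_nonneg (hφ0 s ?_)
    rwa [uIcc_of_le hq.1] at hs
  have hlin : ∀ α β : ℝ, ∫ r in (0 : ℝ)..q.1, (α + β * |φ (q.1 - r)|) = q.1 * α + β * ∫ s in (0 : ℝ)..q.1, φ s := by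
    intro α β
    rw [intervalIntegral.integral_add (by simp) (Continuous.intervalIntegrable (by fun_prop) _ _),
      intervalIntegral.integral_const_mul, hJ]
    simp
  have hT : q.1 ≤ |T| := hq.2.trans (le_abs_self T)
  have hfM : ∀ s ∈ Icc 0 q.1, ∀ z, |f (s, z)| ≤ |M| := fun s hs z =>
    ((h.bM s ⟨hs.1, hs.2.trans hq.2⟩).1 z).trans (le_abs_self M)
  have h1 := hgb f (flx A K f) h.kin (m2 L A K q) hm1 q hq c |M| (fun r => c * (1 + |φ (q.1 - r)|))
    (fun _ => |M| + |M| * (a0 * |M|)) hc (fun r => by positivity) (by fun_prop) continuous_const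
    (fun r hr z hz => ⟨(hm2 r hr z hz).1, (hm2 r hr z hz).2.1⟩) (hfM 0 ⟨le_rfl, hq.1⟩) (fun s hs z => by
      refine ⟨(hfM s hs z).trans (le_add_of_nonneg_right (by positivity)), ?_⟩
      refine le_trans ?_ (le_add_of_nonneg_left (abs_nonneg M))
      rw [flx, norm_smul]
      refine mul_le_mul (hfM s hs z) (((A _).le_opNorm _).trans (mul_le_mul (hA1 _) ?_ (norm_nonneg _) ha0))
        (norm_nonneg _) (abs_nonneg M)
      exact ((h.bM s ⟨hs.1, hs.2.trans hq.2⟩).2 _).trans (le_abs_self M))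
  have e1 : ∫ r in (0 : ℝ)..q.1, (c + c * (1 + |φ (q.1 - r)|)) * (|M| + |M| * (a0 * |M|)) =
      q.1 * (2 * c * (|M| + |M| * (a0 * |M|))) + (c * (|M| + |M| * (a0 * |M|))) * ∫ s in (0 : ℝ)..q.1, φ s := by
    rw [← hlin]; congr 1; funext r; ring
  rw [e1] at h1
  have h2 : |∫ r in (0 : ℝ)..q.1, r * av R (fun z => f (cp q z) *
      L z (fderiv ℝ (fun p => A p (K (px p))) (cp q z) (0, ee a, 0))) r| ≤
      q.1 * (|T| * vol R * |M| * c) + (|T| * vol R * |M| * c) * ∫ s in (0 : ℝ)..q.1, φ s := by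
    rw [← hlin, ← Real.norm_eq_abs]
    refine intervalIntegral.norm_integral_le_of_norm_le hq.1 (Filter.Eventually.of_forall fun r hr => ?_)
      (Continuous.intervalIntegrable (by fun_prop) _ _)
    have hr' : r ∈ Icc 0 q.1 := ⟨hr.1.le, hr.2⟩
    have h3 := av_le (R := R) (r := r) (h := fun z => f (cp q z) *
      L z (fderiv ℝ (fun p => A p (K (px p))) (cp q z) (0, ee a, 0))) (c := |M| * (c * (1 + |φ (q.1 - r)|))) fun z hz => by
        rw [abs_mul]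
        exact mul_le_mul (hfM (q.1 - r) ⟨sub_nonneg.2 hr'.2, sub_le_self _ hr'.1⟩ _) ((hm2 r hr' z hz).2.2 a)
          (abs_nonneg _) (abs_nonneg M)
    rw [Real.norm_eq_abs, abs_mul, abs_of_nonneg hr'.1]
    calc _ ≤ |T| * (vol R * (|M| * (c * (1 + |φ (q.1 - r)|)))) :=
          mul_le_mul (hr'.2.trans hT) h3 (abs_nonneg _) (abs_nonneg T)
      _ = _ := by ring
  have e2 : ∫ r in (0 : ℝ)..q.1, r * av R (fun z => L z (fderiv ℝ (flx A K f) (cp q z) (0, ee a, 0))) r =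
      (∫ r in (0 : ℝ)..q.1, r * av R (Pk (0, ee a) q f (m2 L A K q)) r) + ∫ r in (0 : ℝ)..q.1, r * av R (fun z => f (cp q z) *
        L z (fderiv ℝ (fun p => A p (K (px p))) (cp q z) (0, ee a, 0))) r := by
    have i1 : ∀ {g : PZ → ℝ}, ContDiff ℝ ∞ g → IntervalIntegrable (fun r => r * av R g r) volume 0 q.1 := fun hg =>
      (continuous_id.mul (continuous_av hg R)).intervalIntegrable _ _
    rw [← intervalIntegral.integral_add (i1 hP) (i1 hG), hdec]
    congr 1; funext r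
    rw [av_add hP.continuous hG.continuous]
    ring
  rw [e2]
  refine (abs_add_le _ _).trans ((add_le_add h1 h2).trans ?_)
  generalize (∫ s in (0 : ℝ)..q.1, φ s) = I at hI0
  have hN : 0 ≤ |M| + |M| * (a0 * |M|) := by positivity
  generalize |M| + |M| * (a0 * |M|) = N0 at hN
  have hW : 0 ≤ |T| * vol R * |M| * c := by positivity
  generalize |T| * vol R * |M| * c = W at hW
  have hM := abs_nonneg M
  have hT0 := abs_nonneg T
  generalize |M| = M' at hM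
  generalize |T| = T' at hT hT0
  have b1 : c * M' + (q.1 * (2 * c * N0) + c * N0 * I) ≤ (c * M' + N0 * c * (2 * T' + 1)) * (1 + I) := by
    have : q.1 * (2 * c * N0) ≤ T' * (2 * c * N0) := mul_le_mul_of_nonneg_right hT (by positivity)
    have h5 : 0 ≤ c * M' * I := by positivity
    have h6 : 0 ≤ N0 * c * T' * I := by positivity
    have h7 : 0 ≤ N0 * c := by positivity
    nlinarith
  have b2 : q.1 * W + W * I ≤ W * (T' + 1) * (1 + I) := by
    have : q.1 * W ≤ T' * W := mul_le_mul_of_nonneg_right hT hW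
    have h5 : 0 ≤ W * T' * I := by positivity
    nlinarith
  have b3 := mul_le_mul_of_nonneg_left b1 hC
  nlinarith

end Crest.Agent.R106.GS
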