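import Crest.Agent.R106.GS.Log

/-! Row 106, block GS: `S_GS0` and `S_LOG`. -/

set_option autoImplicit false

noncomputable section

namespace Crest.Agent.R106.GS

open MeasureTheory Set Metric Crest.AnalysisR.VecCalc3 Crest.AnalysisR.PDE.RVM
open Crest.Agent.R106.HR (PX Z6 PZ K6 ee px rho cur Lin MxL Force flx Bd S_GS0 S_LOG)
open Crest.Agent.R106.Wave (sg e3 D)
open scoped ContDiff InnerProductSpace

/-- the six components of the field -/
def cpn : Fin 3 ⊕ Fin 3 → K6 →L[ℝ] ℝ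
  | Sum.inl i => (EuclideanSpace.proj i : R3 →L[ℝ] ℝ).comp (ContinuousLinearMap.fst ℝ R3 R3)
  | Sum.inr i => (EuclideanSpace.proj i : R3 →L[ℝ] ℝ).comp (ContinuousLinearMap.snd ℝ R3 R3)

theorem norm_e3 (i : Fin 3) : ‖e3 i‖ = 1 := by simp

theorem norm_le_sum3 (v : R3) : ‖v‖ ≤ ∑ i, |v i| := by
  conv_lhs => rw [← Wave.sum_e3 v]
  refine (norm_sum_le _ _).trans (Finset.sum_le_sum fun i _ => ?_)
  rw [norm_smul, norm_e3, mul_one, Real.norm_eq_abs]

theorem norm_le_cpn (k : K6) : ‖k‖ ≤ ∑ c, |cpn c k| := by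
  rw [Fintype.sum_sum_type, Prod.norm_def]
  have h1 := norm_le_sum3 k.1
  have h2 := norm_le_sum3 k.2
  have h3 := norm_nonneg k.1
  have h4 := norm_nonneg k.2
  simp only [cpn, ContinuousLinearMap.comp_apply, ContinuousLinearMap.coe_fst', ContinuousLinearMap.coe_snd',
    EuclideanSpace.coe_proj]
  exact max_le (by linarith) (by linarith)

theorem opNorm_le_sum3 (L : R3 →L[ℝ] K6) : ‖L‖ ≤ ∑ a, ‖L (ee a)‖ := by
  refine ContinuousLinearMap.opNorm_le_bound _ (by positivity) fun h => ?_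
  conv_lhs => rw [← Wave.sum_e3 h, map_sum]
  rw [Finset.sum_mul]
  refine (norm_sum_le _ _).trans (Finset.sum_le_sum fun i _ => ?_)
  rw [map_smul, norm_smul, mul_comm]
  exact mul_le_mul_of_nonneg_left (PiLp.norm_apply_le h i) (norm_nonneg _)

theorem fderiv_sl {X V : Type} [NormedAddCommGroup X] [NormedSpace ℝ X] [NormedAddCommGroup V] [NormedSpace ℝ V]
    {g : ℝ × X → V} (hg : ContDiff ℝ ∞ g) (t : ℝ) (x b : X) :
    fderiv ℝ (HR.sl g t) x b = fderiv ℝ g (t, x) (0, b) :=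
  congrArg (fun A : X →L[ℝ] V => A b)
    ((hg.differentiable (by simp) (t, x)).hasFDerivAt.comp x (hasFDerivAt_prodMk_right t x)).fderiv

theorem gs0_comp (R T : ℝ) (l : K6 →L[ℝ] ℝ) : ∃ C : ℝ, 0 ≤ C ∧ ∀ (u : PZ → ℝ) (H : PZ → R3) (K : PX → K6),
    Lin R u H K → ∀ (a : ℝ) (φ : ℝ → ℝ), Continuous φ → Bd 1 (HR.sl K 0) a → (∀ z, |u (0, z)| ≤ a) →
    ∀ t ∈ Icc 0 T, (∀ s ∈ Icc 0 t, ∀ z, |u (s, z)| ≤ φ s ∧ ‖H (s, z)‖ ≤ φ s) → ∀ x,
      |l (K (t, x))| ≤ C * (a + ∫ s in (0 : ℝ)..t, φ s) := by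
  obtain ⟨C₀, hC₀, h₀⟩ := dat_le R T l
  choose C hC h₁ using fun μ => gb1 R T (dir μ)
  choose c hc h₂ using fun μ => bd_cpt (contDiff_km l μ) R T
  refine ⟨C₀ + ∑ μ, C μ * (2 * c μ), add_nonneg hC₀ (Finset.sum_nonneg fun μ _ =>
    mul_nonneg (hC μ) (by linarith [hc μ])), fun u H K h a φ hφ hK hu t ht hb x => ?_⟩
  have ha : 0 ≤ a := (abs_nonneg _).trans (hu 0)
  have hI : 0 ≤ ∫ s in (0 : ℝ)..t, φ s :=
    intervalIntegral.integral_nonneg ht.1 fun s hs => (abs_nonneg _).trans (hb s hs 0).1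
  rw [rep h l (t, x), add_mul, Finset.sum_mul]
  refine (abs_add_le _ _).trans (add_le_add ((h₀ u H K h a hK hu (t, x) ht).trans (by nlinarith))
    ((Finset.abs_sum_le_sum_abs _ _).trans (Finset.sum_le_sum fun μ _ => ?_)))
  refine (h₁ μ u H (kin_of_lin h) _ (contDiff_km l μ) (t, x) ht (c μ) a (fun _ => c μ) φ (hc μ) (fun _ => hc μ)
    continuous_const hφ (fun r hr z hz => h₂ μ r ⟨hr.1, hr.2.trans ht.2⟩ z hz) hu hb).trans ?_
  rw [intervalIntegral.integral_const_mul, intervalIntegral.integral_comp_sub_left φ, sub_self, sub_zero, mul_assoc]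
  exact mul_le_mul_of_nonneg_left (by nlinarith [mul_nonneg (hc μ) ha]) (hC μ)

theorem s_GS0 : S_GS0 := by
  intro R T
  choose C hC h using fun c => gs0_comp R T (cpn c)
  refine ⟨∑ c, C c, Finset.sum_nonneg fun c _ => hC c, fun u H K hL a φ hφ hK hu t ht hb x => ?_⟩
  rw [Finset.sum_mul]
  exact (norm_le_cpn _).trans (Finset.sum_le_sum fun c _ => h c u H K hL a φ hφ hK hu t ht hb x)

/-- the linear forms of the S-term -/
def LL (e : PX) (k : PZ → ℝ) (z : PZ) : R3 →L[ℝ] ℝ :=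
  (fderiv ℝ (fun w => k w * lam e w) z).comp
    ((ContinuousLinearMap.inr ℝ ℝ Z6).comp (ContinuousLinearMap.inr ℝ R3 R3))

theorem contDiff_LL (e : PX) {k : PZ → ℝ} (hk : ContDiff ℝ ∞ k) : ContDiff ℝ ∞ (LL e k) :=
  ((hk.mul (contDiff_lam e)).fderiv_right (m := ∞) (by simp)).clm_comp contDiff_const

theorem norm_dirx (a : Fin 3) : ‖((ee a, 0) : Z6)‖ = 1 := by
  have : ‖ee a‖ = 1 := norm_e3 a
  simp [Prod.norm_def, this]

theorem log_comp (R T M : ℝ) {A : PZ → K6 →L[ℝ] R3} (hA : Force R A) (l : K6 →L[ℝ] ℝ) (a : Fin 3) :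
    ∃ C : ℝ, 0 ≤ C ∧ ∀ (N : ℝ) (f : PZ → ℝ) (K K' : PX → K6) (φ : ℝ → ℝ) (q : PX), LogH R T M N A f K φ q →
      Lin R f (flx A K f) K' → Bd 2 (HR.sl K' 0) M → Bd 1 (HR.sl f 0) M →
      |l (fderiv ℝ K' q (0, ee a))| ≤ C * (1 + Real.log N + ∫ s in (0 : ℝ)..q.1, φ s) := by
  obtain ⟨C₀, hC₀, h₀⟩ := dat_le R T l
  choose c hc h₂ using fun μ => bd_cpt (contDiff_km l μ) R T
  choose c' hc' h₃ using fun μ => ker_ops R T (dir μ)
  choose C₁ hC₁ h₄ using fun μ => log_T R T M hA (contDiff_q1 (dir μ) (contDiff_km l μ)) a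
  choose C₂ hC₂ h₅ using fun μ => log_V R T M hA (contDiff_LL (dir μ) (contDiff_km l μ)) a
  have hv := vol_nonneg R
  refine ⟨C₀ * |M| + ∑ μ, (|T| * (vol R * (c' μ * c μ * |M|)) + C₁ μ + C₂ μ), add_nonneg (by positivity)
    (Finset.sum_nonneg fun μ _ => by have := hc μ; have := hc' μ; have := hC₁ μ; have := hC₂ μ; positivity),
    fun N f K K' φ q hH hL hK' hf => ?_⟩
  have hq := hH.hq
  have hN : 0 ≤ Real.log N := Real.log_nonneg hH.hN
  have hI : 0 ≤ ∫ s in (0 : ℝ)..q.1, φ s :=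
    intervalIntegral.integral_nonneg hq.1 fun s hs => (norm_nonneg _).trans (hH.bφ s hs 0)
  have h' := lin_Dx hL (ee a)
  have hu0 : ∀ z, |fderiv ℝ f (0, z) (0, ee a, 0)| ≤ |M| := fun z => by
    rw [← fderiv_sl hL.su, ← Real.norm_eq_abs]
    refine (ContinuousLinearMap.le_opNorm _ _).trans ?_
    rw [norm_dirx, mul_one, ← norm_iteratedFDeriv_one]
    exact (hf 1 le_rfl z).trans (le_abs_self M)
  have hK0 : Bd 1 (HR.sl (fun q => fderiv ℝ K' q (0, ee a)) 0) |M| := fun j hj x => by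
    have e : HR.sl (fun q => fderiv ℝ K' q (0, ee a)) 0 = fun y => fderiv ℝ (HR.sl K' 0) y (ee a) :=
      funext fun y => (fderiv_sl hL.sK 0 y (ee a)).symm
    have hs : ContDiff ℝ ∞ (HR.sl K' 0) := hL.sK.comp (contDiff_const.prodMk contDiff_id)
    rw [e]
    refine (norm_iteratedFDeriv_clm_apply_const (N := ∞)
      (hs.fderiv_right (m := ∞) (by simp)).contDiffAt (by exact_mod_cast le_top)).trans ?_
    rw [show ‖ee a‖ = 1 from norm_e3 a, one_mul, norm_iteratedFDeriv_fderiv]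
    exact (hK' (j + 1) (by omega) x).trans (le_abs_self M)
  set S := 1 + Real.log N + ∫ s in (0 : ℝ)..q.1, φ s with hS
  have hS1 : 1 ≤ S := by linarith
  rw [rep h' l q, add_mul, Finset.sum_mul]
  refine (abs_add_le _ _).trans (add_le_add ((h₀ _ _ _ h' |M| hK0 hu0 q hq).trans
    (le_mul_of_one_le_right (by positivity) hS1))
    ((Finset.abs_sum_le_sum_abs _ _).trans (Finset.sum_le_sum fun μ _ => ?_)))
  rw [gs_int (kin_of_lin h') (contDiff_km l μ) (dir μ) q q.1]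
  have b1 : |q.1 * av R (Gk (dir μ) q (fun p => fderiv ℝ f p (0, ee a, 0)) (km l μ)) q.1| ≤
      |T| * (vol R * (c' μ * c μ * |M|)) := by
    rw [abs_mul]
    refine mul_le_mul (by rw [abs_of_nonneg hq.1]; exact hq.2.trans (le_abs_self T)) (av_le fun z hz => ?_)
      (abs_nonneg _) (abs_nonneg _)
    have h6 := h₂ μ q.1 hq z hz
    have h7 := (h₃ μ _ (contDiff_km l μ) q.1 hq z hz _ _ h6.1 h6.2).1
    rw [Gk, abs_mul]
    refine mul_le_mul h7 ?_ (abs_nonneg _) (mul_nonneg (hc' μ) (hc μ))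
    simp only [cp, sub_self]
    exact hu0 _
  have b2 := h₄ μ N f K φ q hH
  have b3 := h₅ μ N f K φ q hH
  have p1 : 0 ≤ |T| * (vol R * (c' μ * c μ * |M|)) := (abs_nonneg _).trans b1
  refine ((abs_add_le _ _).trans (add_le_add ((abs_add_le _ _).trans (add_le_add b1 b2)) b3)).trans ?_
  have e1 := le_mul_of_one_le_right p1 hS1
  have e2 := mul_le_mul_of_nonneg_left (show 1 + Real.log N ≤ S by linarith) (hC₁ μ)
  have e3 := mul_le_mul_of_nonneg_left (show 1 + ∫ s in (0 : ℝ)..q.1, φ s ≤ S by linarith) (hC₂ μ)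
  linarith

theorem s_LOG : S_LOG := by
  intro R T M A hA
  choose C hC h using fun (a : Fin 3) c => log_comp R T M hA (cpn c) a
  refine ⟨∑ a, ∑ c, C a c, Finset.sum_nonneg fun a _ => Finset.sum_nonneg fun c _ => hC a c,
    fun f K K' hK hL hK' hf hM N φ hN hφ t ht hb x => ?_⟩
  have hH : LogH R T M N A f K φ (t, x) :=
    ⟨hK, kin_of_lin hL, hM, hN, hφ, ht, fun s hs z a => by
      rw [← fderiv_sl hL.su, ← Real.norm_eq_abs]
      refine (ContinuousLinearMap.le_opNorm _ _).trans ?_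
      rw [norm_dirx, mul_one]
      exact (hb s hs).1 z, fun s hs => (hb s hs).2⟩
  rw [Finset.sum_mul]
  refine (opNorm_le_sum3 _).trans (Finset.sum_le_sum fun a _ => ?_)
  rw [Finset.sum_mul, fderiv_sl hL.sK]
  exact (norm_le_cpn _).trans (Finset.sum_le_sum fun c _ => h a c N f K K' φ (t, x) hH hL hK' hf)

end Crest.Agent.R106.GS
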